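import Vale.Agent.P032.S5.H358.Ok

/-!
# P032: no two-pair centre, the circles may carry harmless four coloured points

`no_D_of_ok`: if the circle of every two-pair centre is a tie word without special ends (`OkC`), there
is no two-pair centre.  `no_D_of_22`: it is enough that every two-pair centre is `OkC` or has two clean
ends of each of two complementary types, when the latter is impossible (`WebF.no22`).
`okC_of_adm`: a circle with the points `Adm` (helper767) is `OkC`.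
-/

open Set Filter Topology Metric

noncomputable section

namespace Vale.Agent.P032.S5.H358

open Vale.Agent.P032.Six Vale.Agent.P032.Words Vale.Agent.P032.S5.H767 Vale.Agent.P032.S5.H349
open Vale.Agent.P032.Net.H672

variable {U : Fin 6 → Set ℂ} {T : ℂ → Set (Fin 6)} {X : Set (Fin 6)} {z v q q' m : ℂ}
  {a b c d e f : Fin 6}

/-- the points of the circle of `z` with more than three colours carry a pair of `z` and the two
missing colours -/
def PtC (T : ℂ → Set (Fin 6)) (z : ℂ) : Prop :=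
  ∀ y, dist y z = 1 → (T y).ncard ≤ 3 ∨ ∃ P, P ⊆ T z ∧ P.ncard = 2 ∧ (∃ p, Arc T z p P) ∧
    T y = P ∪ (T z)ᶜ

/-- a good circle -/
def Good (U : Fin 6 → Set ℂ) (T : ℂ → Set (Fin 6)) (z : ℂ) : Prop := OkC U T z ∧ PtC T z

/-- two clean ends of each of two complementary types -/
def Has22 (T : ℂ → Set (Fin 6)) (z : ℂ) : Prop :=
  ∃ v₁ v₂ q₁ q₂, EE T z v₁ ∧ EE T z v₂ ∧ v₁ ≠ v₂ ∧ EE T z q₁ ∧ EE T z q₂ ∧ q₁ ≠ q₂ ∧
    T v₂ = T v₁ ∧ T q₁ = (T v₁)ᶜ ∧ T q₂ = (T v₁)ᶜ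

theorem good_of_ee (h : Irr U T) (hK : ∀ z a b c d, DPt T z a b c d → Good U T z)
    (hv : EE T z v) : Good U T z := by
  obtain ⟨a, b, c, d, h1, h2⟩ := hv.names
  exact hK z a b c d (hv.dpt h h1 h2)

/-- the network -/
theorem net_ok (h : Irr U T) (h4 : ∀ z, (T z).ncard ≤ 4)
    (hK : ∀ z a b c d, DPt T z a b c d → Good U T z) (X : Set (Fin 6)) :
    Vale.Agent.P032.Net.H672.Net (fun z v => EE T z v ∧ T v = X)
      (fun z q => EE T z q ∧ T q = Xᶜ) := by
  have hX3 : ∀ {z v}, EE T z v ∧ T v = X → X.ncard = 3 := by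
    rintro z v ⟨h1, rfl⟩; exact h1.card_v
  have hX3' : ∀ {z v}, EE T z v ∧ T v = Xᶜ → X.ncard = 3 := by
    rintro z v ⟨h1, h2⟩
    have h3 := h1.card_v
    rw [h2] at h3
    have := Set.ncard_add_ncard_compl X
    rw [Nat.card_eq_fintype_card, Fintype.card_fin] at this
    omega
  have hc : ∀ {z v z' q}, EE T z v ∧ T v = X → EE T z' q ∧ T q = Xᶜ → T q = (T v)ᶜ := by
    rintro z v z' q ⟨-, h1⟩ ⟨-, h2⟩
    rw [h1, h2]
  have hc' : ∀ {z v z' q}, EE T z v ∧ T v = X → EE T z' q ∧ T q = Xᶜ → T v = (T q)ᶜ := by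
    rintro z v z' q ⟨-, h1⟩ ⟨-, h2⟩
    rw [h1, h2, compl_compl]
  have back : ∀ {z v q v'}, EE T z v ∧ T v = X → EE T z q ∧ T q = Xᶜ → En T X z v' →
      EE T z v' ∧ T v' = X := fun hv hq hv' =>
    ⟨hv'.ee (hX3 hv) (hv.1.arc_compl hv.2), hv'.1⟩
  have back' : ∀ {z v q v'}, EE T z v ∧ T v = X → EE T z q ∧ T q = Xᶜ → En T Xᶜ z v' →
      EE T z v' ∧ T v' = Xᶜ := fun hv hq hv' =>
    ⟨hv'.ee (ncard_compl_three (hX3 hv)) (hq.1.arc_compl hq.2), hv'.1⟩
  have h3 : ∀ {z v}, EE T z v → OkC U T z := fun hv => (good_of_ee h hK hv).1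
  have hcl : ∀ {z v q}, EE T z v ∧ T v = X → EE T z q ∧ T q = Xᶜ → ∀ m, dist m z = 1 →
      T m = X ∨ T m = Xᶜ → Vale.Agent.P032.S5.H349.Cln T z m := by
    rintro z v q hv hq m hm (h5 | h5)
    · exact hv.1.cln h h4 hq.1 (hc hv hq) hm (h5.trans hv.2.symm)
    · exact hq.1.cln h h4 hv.1 (hc' hv hq) hm (h5.trans hq.2.symm)
  refine
    { dist_t := fun hv => hv.1.dist
      dist_c := fun hq => hq.1.dist
      ne := fun {z z' v} hv hq => ?_
      rh := fun {z v q} hv hq => ⟨⟨hv.1.rh h h4 hq.1 (hc hv hq), hv.2⟩,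
        ⟨hv.1.rh' h h4 hq.1 (hc hv hq), hq.2⟩⟩
      three_t := ?_
      three_c := ?_
      sep := ?_
      L2 := ?_
      L3 := ?_
      L3' := ?_ }
  · have h5 := (hv.1.en hv.2).ne (hX3 hv) (hq.1.en hq.2)
    exact h5 rfl
  · rintro v z₁ z₂ z₃ z₄ ⟨a1, q1, b1⟩ ⟨a2, q2, b2⟩ ⟨a3, q3, b3⟩ ⟨a4, q4, b4⟩
    exact h.en_three (hX3 a1) ⟨a1.1.en a1.2, q1, b1.1.en b1.2⟩ ⟨a2.1.en a2.2, q2, b2.1.en b2.2⟩
      ⟨a3.1.en a3.2, q3, b3.1.en b3.2⟩ ⟨a4.1.en a4.2, q4, b4.1.en b4.2⟩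
  · rintro q z₁ z₂ z₃ z₄ ⟨a1, q1, b1⟩ ⟨a2, q2, b2⟩ ⟨a3, q3, b3⟩ ⟨a4, q4, b4⟩
    have e : ∀ {z v}, EE T z v ∧ T v = X → En T Xᶜᶜ z v := fun hv =>
      hv.1.en (by rw [compl_compl]; exact hv.2)
    exact h.en_three (X := Xᶜ) (ncard_compl_three (hX3' a1))
      ⟨a1.1.en a1.2, q1, e b1⟩ ⟨a2.1.en a2.2, q2, e b2⟩
      ⟨a3.1.en a3.2, q3, e b3⟩ ⟨a4.1.en a4.2, q4, e b4⟩
  · rintro z v₁ v₂ q₁ q₂ hv₁ hv₂ hq₁ hq₂
    have e : ∀ {v q}, EE T z v ∧ T v = X → EE T z q ∧ T q = Xᶜ → T v ∩ T z = T z \ T q := by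
      rintro v q ⟨-, h1⟩ ⟨-, h2⟩
      rw [h1, h2, Set.sdiff_compl, inter_comm]
    have l1 := hq₁.1.lp2 h hv₁.1 hv₂.1 (e hv₁ hq₁) (e hv₂ hq₁)
    have l2 := hq₂.1.lp2 h hv₁.1 hv₂.1 (e hv₁ hq₂) (e hv₂ hq₂)
    have nz : ∀ {v q}, EE T z v ∧ T v = X → EE T z q ∧ T q = Xᶜ →
        cr (q - z) (v - z) ≠ 0 := by
      intro v q hv hq
      refine cr_ne_of hq.1.dist hv.1.dist ((hv.1.en hv.2).ne (hX3 hv) (hq.1.en hq.2)).symm ?_
      rw [add_comm]
      exact hv.1.anti h hq.1 (hc hv hq)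
    have n11 := nz hv₁ hq₁
    have n21 := nz hv₂ hq₁
    have n12 := nz hv₁ hq₂
    have n22 := nz hv₂ hq₂
    have hP : (0 < cr (q₁ - z) (v₁ - z) * cr (q₁ - z) (v₂ - z)) ↔
        0 < cr (q₂ - z) (v₁ - z) * cr (q₂ - z) (v₂ - z) := l1.symm.trans l2
    have hpos : 0 < (cr (q₁ - z) (v₁ - z) * cr (q₁ - z) (v₂ - z)) *
        (cr (q₂ - z) (v₁ - z) * cr (q₂ - z) (v₂ - z)) := by
      rcases lt_or_gt_of_ne (mul_ne_zero n11 n21) with h5 | h5
      · rcases lt_or_gt_of_ne (mul_ne_zero n12 n22) with h6 | h6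
        · exact mul_pos_of_neg_of_neg h5 h6
        · exact absurd (hP.2 h6) (not_lt.2 h5.le)
      · exact mul_pos h5 (hP.1 h5)
    refine hpos.trans_le (le_of_eq ?_)
    unfold cr Vale.Agent.P032.Net.H672.dt
    ring
  · intro z v q hv hq
    rcases L2_ok h (hX3 hv) (h3 hv.1) (hv.1.pairs h hv.2) (hcl hv hq) (hv.1.en hv.2)
      (hq.1.en hq.2) with ⟨v', h5, h6⟩ | ⟨q', h5, h6⟩
    · exact Or.inl ⟨v', h5, back hv hq h6⟩
    · exact Or.inr ⟨q', h5, back' hv hq h6⟩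
  · intro z v q q' hv hq hq' hne hu1 hu2
    exact L3_ok h (hX3 hv) (h3 hv.1) (hv.1.pairs h hv.2) (hcl hv hq) (hv.1.en hv.2)
      (hq.1.en hq.2) (hq'.1.en hq'.2) hne (fun v' h5 => hu1 v' (back hv hq h5))
      (fun p h5 => hu2 p (back' hv hq h5))
  · intro z q v v' hq hv hv' hne hu1 hu2
    have e : ∀ {z v}, EE T z v ∧ T v = X → T v = Xᶜᶜ := fun hv => by
      rw [compl_compl]; exact hv.2
    refine L3_ok (X := Xᶜ) h (ncard_compl_three (hX3 hv)) (h3 hv.1) (hq.1.pairs h hq.2) ?_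
      (hq.1.en hq.2) (hv.1.en (e hv)) (hv'.1.en (e hv')) hne
      (fun v' h5 => hu1 v' (back' hv hq h5))
      (fun p h5 => hu2 p (back hv hq (by rw [compl_compl] at h5; exact h5)))
    intro m hm h5
    refine hcl hv hq m hm ?_
    rw [compl_compl] at h5
    exact h5.symm

/-- the other end of an arc -/
theorem arc_ex_ok (h : Irr U T) (K : OkC U T z) (hv : EE T z v)
    (hq : EE T z q) (hc : T q = (T v)ᶜ) : ∃ v', AA T z v v' := by
  obtain ⟨l, hl0, hl, hE, hp, harc⟩ := far' h (K.ends _ inter_subset_left hv.card_i) hv.ore813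
    hq.ore813 (by
      rw [hc, Set.disjoint_left]
      rintro i ⟨-, h1⟩ h2
      exact h2 h1)
  exact ⟨_, _, l, hl0, hl, hv.ore813, hE, rfl, harc⟩

/-- the arc fields -/
theorem arcFields_ok (h : Irr U T) (h4 : ∀ z, (T z).ncard ≤ 4)
    (hK : ∀ z a b c d, DPt T z a b c d → Good U T z) : ArcFields U T (AA T) where
  arc_ex := by
    rintro z v ⟨hv, q, hq, hc⟩
    exact arc_ex_ok h (good_of_ee h hK hv).1 hv hq hc
  arc_end := EE.fld_end
  arc_pair := EE.fld_pair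
  arc_len := EE.fld_len h h4
  arc_uniq := EE.fld_uniq h h4
  arc_symm := EE.fld_symm
  arc_ori := EE.fld_ori h h4
  arc_inn := EE.fld_inn h

/-- the pairs of a centre with an end `v` -/
theorem pair_of_arc (h : Irr U T) (hv : EE T z v) {P : Set (Fin 6)} (hP : P ⊆ T z) {p : ℂ}
    (hp : Arc T z p P) : P = T z ∩ T v ∨ P = T z \ T v := by
  have h1 := hp.mem
  rcases hv.twoPairs h p hp.1 (by rw [h1]; exact hp.2) (by rw [h1]; exact hP) with h2 | h2
  · left; rw [← h1, h2]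
  · right; rw [← h1, h2]

/-- **the field `common`** for good circles -/
theorem common_ok (h : Irr U T) (hK : ∀ z a b c d, DPt T z a b c d → Good U T z)
    {w v q w' v' q' m : ℂ} (e1 : EE T w v) (e3 : T q = (T v)ᶜ)
    (e1' : EE T w' v') (e3' : T q' = (T v')ᶜ) (hne : w ≠ w') (hcov : ∀ i, i ∈ T w ∨ i ∈ T w')
    (hmw : dist m w = 1) (hmw' : dist m w' = 1) (hne2 : w + w' ≠ 2 * m)
    (hs : (T v ∩ T w ∩ T w').ncard = 1) (hs' : (T v' ∩ T w' ∩ T w).ncard = 1) :
    (T m).ncard = 3 ∧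
      (T m ∩ T w = T v ∩ T w ∨ T m ∩ T w = T q ∩ T w) ∧
      (T m ∩ T w' = T v' ∩ T w' ∨ T m ∩ T w' = T q' ∩ T w') := by
  refine e1.common h e3 e1' e3' hne hcov hmw hmw' hne2 hs hs' ?_
  rcases (good_of_ee h hK e1).2 m hmw with h3 | ⟨P, hPw, hP2, ⟨p, hp⟩, hTm⟩
  · exact h3
  rcases (good_of_ee h hK e1').2 m hmw' with h3 | ⟨P', hPw', hP2', ⟨p', hp'⟩, hTm'⟩
  · exact h3
  exfalso
  -- `(T w')ᶜ ⊆ P`
  have c1 : (T w')ᶜ ⊆ P := by
    intro i hi
    have h5 : i ∈ T m := by rw [hTm']; exact Or.inr hi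
    rw [hTm] at h5
    rcases h5 with h5 | h5
    · exact h5
    · rcases hcov i with h6 | h6
      · exact absurd h6 h5
      · exact absurd h6 hi
  have n1 : (T w')ᶜ.ncard = 2 := by
    have h5 := Set.ncard_add_ncard_compl (T w')
    rw [Nat.card_eq_fintype_card, Fintype.card_fin, e1'.card_z] at h5
    omega
  have c2 : (T w')ᶜ = P := Set.eq_of_subset_of_ncard_le c1 (by omega) (Set.toFinite _)
  have hPd : (P ∩ T w').ncard = 0 := by
    rw [← c2, compl_inter_self, Set.ncard_empty]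
  -- two common colours
  have hun : T w ∪ T w' = univ := eq_univ_of_forall hcov
  have hcard : (T w ∩ T w').ncard = 2 := by
    have h1 := Set.ncard_union_add_ncard_inter (T w) (T w') (Set.toFinite _) (Set.toFinite _)
    rw [hun, Set.ncard_univ, Nat.card_eq_fintype_card, Fintype.card_fin, e1.card_z,
      e1'.card_z] at h1
    omega
  rcases pair_of_arc h e1 hPw hp with h5 | h5
  · rw [h5, inter_comm (T w) (T v)] at hPd
    omega
  · have h6 : (T w ∩ T w') = (T v ∩ T w ∩ T w') ∪ (P ∩ T w') := by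
      rw [h5]
      ext i
      simp only [mem_inter_iff, mem_union, Set.mem_sdiff]
      tauto
    have h7 := Set.ncard_union_le (T v ∩ T w ∩ T w') (P ∩ T w')
    rw [← h6] at h7
    omega

/-- the network with palettes -/
theorem dnet_ok (h : Irr U T) (h4 : ∀ z, (T z).ncard ≤ 4)
    (hK : ∀ z a b c d, DPt T z a b c d → Good U T z) :
    DNet T (EE T) (AA T) (ore T) (inn U T) where
  net := net_ok h h4 hK
  card_z := fun hv => hv.card_z
  card_v := fun hv => hv.card_v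
  card_i := fun hv => hv.card_i'
  cov := fun hv hq hc => hv.cov h h4 hq hc
  ori := fun {z v} _ => ore_or T z v
  inn_mem := fun hv => hv.inn_mem h
  LP1 := fun hv hq hc => hv.lp1 h h4 hq hc
  LP2 := fun hq hv hv' h1 h2 => hq.1.lp2 h hv.1 hv'.1 h1 h2
  LP3 := fun hv hq hc hv' hp hc' hcz hcw => hv.lp3 h h4 hq hc hv' hp hc' hcz hcw
  arc_ex := (arcFields_ok h h4 hK).arc_ex
  arc_end := EE.fld_end
  arc_pair := EE.fld_pair
  arc_len := EE.fld_len h h4
  arc_uniq := EE.fld_uniq h h4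
  arc_symm := EE.fld_symm
  arc_ori := EE.fld_ori h h4
  arc_inn := EE.fld_inn h
  auto := fun hv hq hc hm hTm => hv.auto h h4 hq hc hm hTm
  common := fun e1 _ e3 e1' _ e3' hne hcv d d' n s s' =>
    common_ok h hK e1 e3 e1' e3' hne hcv d d' n s s'
  lemX := fun hu' hpu hpr ht hT => hu'.lemX h hpu hpr ht hT

/-- **No complementary ends**, good circles -/
theorem no_compl_ok (h : Irr U T) (h4 : ∀ z, (T z).ncard ≤ 4)
    (hK : ∀ z a b c d, DPt T z a b c d → Good U T z) {z v q : ℂ}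
    (hv : EE T z v) (hq : EE T z q) (hc : T q = (T v)ᶜ) : False :=
  (dnet_ok h h4 hK).false hv hq hc

/-! ### the start -/

/-- the centre in the form `Ctr`, without minimality -/
theorem ctr_of_dpt (h : Irr U T) (hz : DPt T z a b c d) (nd : [a, b, c, d, e, f].Nodup) :
    Ctr U T z a b c d e f :=
  ⟨h, hz.pal, nd, fun y hy hcon hsub => h.twoPairs hz y hy hcon hsub⟩

/-- an exact `ab`-arc has an end point -/
theorem arc_end_ok (h : Irr U T) (hz : DPt T z a b c d)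
    (h3 : ∀ y, y ∈ closure (Ex T z {a, b}) → (T y).ncard ≤ 3) :
    ∃ y g, dist y z = 1 ∧ g ∉ T z ∧ T y = {a, b, g} := by
  obtain ⟨p, hp⟩ := hz.arc1
  obtain ⟨p2, hp2⟩ := hz.arc2
  obtain ⟨q2, hq2, hne, hop⟩ := hp2.exists_off_line (y := p2)
  obtain ⟨t0, ht0⟩ := exists_cis (u := p - z) (by rw [← dist_eq_norm]; exact hp.1)
  have hgt : p = z + cis t0 := by rw [← ht0]; ring
  rw [hgt] at hp
  obtain ⟨η, hη, hJ⟩ := hp.exists_eta
  obtain ⟨l, g, -, -, -, -, hTl, hg⟩ := exists_arc_end' h (z := z) (P := {a, b}) (Q := {c, d})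
    (θ := t0) (o := 1) (ε := η) (Or.inl rfl) (Set.ncard_pair hz.ab)
    (by rw [hz.pal]; ext i; simp only [mem_insert_iff, mem_singleton_iff, mem_union]; tauto) hη
    (fun t ht => hJ _ (by
      rw [one_mul, sub_sub_cancel_left, abs_neg, abs_of_pos ht.1]; exact ht.2))
    h3 (Set.ncard_pair hz.cd) (y₁ := q2) (y₂ := p2) hq2.1 hp2.1 hne hop
    (by rw [hq2.mem]) (by rw [hp2.mem])
  refine ⟨z + cis (t0 - 1 * l), g, dist_add_cis z _, hg, ?_⟩
  rw [hTl]
  ext i
  simp only [mem_insert_iff, mem_singleton_iff]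
  tauto

/-- **Start of the network argument** -/
theorem start_ok (h : Irr U T) (h4 : ∀ z, (T z).ncard ≤ 4) (hz : DPt T z a b c d)
    (K : OkC U T z) : ∃ v q, EE T z v ∧ EE T z q ∧ T q = (T v)ᶜ := by
  obtain ⟨e, f, nd⟩ := hz.exists_nodup
  have C := ctr_of_dpt h hz nd
  have nd' : [a, b, c, d, f, e].Nodup := by
    have : [a, b, c, d, f, e].Perm [a, b, c, d, e, f] := by
      refine List.Perm.cons _ (List.Perm.cons _ (List.Perm.cons _ (List.Perm.cons _ ?_)))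
      exact List.Perm.swap _ _ _
    exact this.nodup_iff.2 nd
  have C' := ctr_of_dpt h hz nd'
  obtain ⟨⟨ab, ac, ad, ae, af⟩, ⟨bc, bd, be, bf⟩, ⟨cd, ce, cf⟩, ⟨de, df⟩, ef⟩ := nd_ne nd
  have he : e ∉ T z := by
    rw [hz.pal]
    simp only [mem_insert_iff, mem_singleton_iff, not_or]
    exact ⟨ae.symm, be.symm, ce.symm, de.symm⟩
  have hf : f ∉ T z := by
    rw [hz.pal]
    simp only [mem_insert_iff, mem_singleton_iff, not_or]
    exact ⟨af.symm, bf.symm, cf.symm, df.symm⟩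
  -- the two kinds of complementary pairs
  have fin1 : ∀ {V Q : ℂ}, dist V z = 1 → dist Q z = 1 → T V = {a, b, e} → T Q = {c, d, f} →
      ∃ v q, EE T z v ∧ EE T z q ∧ T q = (T v)ᶜ := by
    intro V Q hV hQ h1 h2
    exact ⟨V, Q, Cfg.ends h ⟨hz, hV, hQ, h1, h2, he, hf, ef⟩ (h4 _)⟩
  have fin2 : ∀ {V Q : ℂ}, dist V z = 1 → dist Q z = 1 → T V = {a, b, f} → T Q = {c, d, e} →
      ∃ v q, EE T z v ∧ EE T z q ∧ T q = (T v)ᶜ := by
    intro V Q hV hQ h1 h2
    exact ⟨V, Q, Cfg.ends h ⟨hz, hV, hQ, h1, h2, hf, he, ef.symm⟩ (h4 _)⟩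
  obtain ⟨y1, d1, k1⟩ := L1e_ok C K
  obtain ⟨y2, d2, k2⟩ := L1e_ok C' K
  obtain ⟨y3, g3, d3, hg3, k3⟩ := arc_end_ok h hz fun y hy => ctr_ends C K (Or.inl hy)
  obtain ⟨y4, g4, d4, hg4, k4⟩ := arc_end_ok h hz.swap fun y hy => ctr_ends C K (Or.inr hy)
  rcases C.miss hg3 with rfl | rfl
  · -- `y3 = abe`
    rcases C.miss hg4 with rfl | rfl
    · -- `y4 = cde`
      rcases k2 with k2 | k2
      · exact fin2 d2 d4 k2 k4
      · exact fin1 d3 d2 k3 k2
    · exact fin1 d3 d4 k3 k4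
  · -- `y3 = abf`
    rcases C.miss hg4 with rfl | rfl
    · exact fin2 d3 d4 k3 k4
    · rcases k1 with k1 | k1
      · exact fin1 d1 d4 k1 k4
      · exact fin2 d3 d1 k3 k1

/-- **No two-pair centre**, good circles -/
theorem no_D_of_good (h : Irr U T) (h4 : ∀ z, (T z).ncard ≤ 4)
    (hK : ∀ z a b c d, DPt T z a b c d → Good U T z) :
    ∀ z a b c d, DPt T z a b c d → False := by
  intro z a b c d hz
  obtain ⟨v, q, hv, hq, hc⟩ := start_ok h h4 hz (hK z a b c d hz).1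
  exact no_compl_ok h h4 hK hv hq hc

/-- **No two-pair centre**, if every circle is good or carries two clean ends of each of two
complementary types, and the latter is impossible -/
theorem no_D_of_22 (h : Irr U T) (h4 : ∀ z, (T z).ncard ≤ 4) (h22 : ∀ z, ¬ Has22 T z)
    (hD : ∀ z a b c d, DPt T z a b c d → Good U T z ∨ Has22 T z) :
    ∀ z a b c d, DPt T z a b c d → False :=
  no_D_of_good h h4 fun z a b c d hz => (hD z a b c d hz).resolve_right (h22 z)

/-! ### admissible points -/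

/-- the points of the circle of `z` are admissible (helper767), no star -/
def AdmC (T : ℂ → Set (Fin 6)) (z : ℂ) (a b c d e f : Fin 6) : Prop :=
  (∀ y, dist y z = 1 → Adm T z a b c d e f y) ∧
    ∀ y y', dist y z = 1 → dist y' z = 1 → dist y y' = 1 → Hx T z a b e f y →
      ¬ Hx T z c d e f y'

theorem four_of_hx (C : Ctr U T z a b c d e f) {y : ℂ} (hy : Hx T z a b e f y) :
    4 ≤ (T y).ncard := by
  obtain ⟨⟨ab, ac, ad, ae, af⟩, ⟨bc, bd, be, bf⟩, ⟨cd, ce, cf⟩, ⟨de, df⟩, ef⟩ := nd_ne C.nd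
  exact four_le (p := a) (q := b) (r := e) (t := f) (by rw [hy.1]; simp) (by rw [hy.1]; simp)
    (by rw [hy.1]; simp) (by rw [hy.1]; simp) (by simp [ab, ae, af, be, bf, ef])

/-- the palette of an exceptional point -/
theorem pal_of_hx (C : Ctr U T z a b c d e f) {y : ℂ} (hy : Hx T z a b e f y) :
    T y = {a, b} ∪ (T z)ᶜ := by
  obtain ⟨⟨ab, ac, ad, ae, af⟩, ⟨bc, bd, be, bf⟩, ⟨cd, ce, cf⟩, ⟨de, df⟩, ef⟩ := nd_ne C.nd
  rw [hy.1, C.pal]
  ext i
  simp only [mem_insert_iff, mem_singleton_iff, mem_union, mem_compl_iff, not_or]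
  constructor
  · rintro (rfl | rfl | rfl | rfl)
    · simp
    · simp
    · exact Or.inr ⟨ae.symm, be.symm, ce.symm, de.symm⟩
    · exact Or.inr ⟨af.symm, bf.symm, cf.symm, df.symm⟩
  · rintro ((rfl | rfl) | ⟨n1, n2, n3, n4⟩)
    · simp
    · simp
    · have h1 : i ∉ T z := by
        rw [C.pal]
        simp only [mem_insert_iff, mem_singleton_iff, not_or]
        exact ⟨n1, n2, n3, n4⟩
      rcases C.miss h1 with h2 | h2
      · exact Or.inr (Or.inr (Or.inl h2))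
      · exact Or.inr (Or.inr (Or.inr h2))

/-- the missing colours -/
theorem ef_eq (C : Ctr U T z a b c d e f) : ({e, f} : Set (Fin 6)) = (T z)ᶜ := by
  obtain ⟨⟨ab, ac, ad, ae, af⟩, ⟨bc, bd, be, bf⟩, ⟨cd, ce, cf⟩, ⟨de, df⟩, ef⟩ := nd_ne C.nd
  ext i
  constructor
  · rintro (rfl | rfl)
    · rw [C.pal]
      simp only [mem_compl_iff, mem_insert_iff, mem_singleton_iff, not_or]
      exact ⟨ae.symm, be.symm, ce.symm, de.symm⟩
    · rw [C.pal]
      simp only [mem_compl_iff, mem_insert_iff, mem_singleton_iff, not_or]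
      exact ⟨af.symm, bf.symm, cf.symm, df.symm⟩
  · intro hi
    exact C.miss hi

theorem four_eq (p q e f : Fin 6) : ({p, q, e, f} : Set (Fin 6)) = {p, q} ∪ {e, f} := by
  ext i; simp only [mem_insert_iff, mem_singleton_iff, mem_union]; tauto

/-- `Hx` depends only on the sets -/
theorem hx_congr {p q p' q' e' f' : Fin 6} (hpq : ({p, q} : Set (Fin 6)) = {p', q'})
    (hef : ({e, f} : Set (Fin 6)) = {e', f'}) {y : ℂ} (hy : Hx T z p q e f y) :
    Hx T z p' q' e' f' y :=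
  ⟨by rw [hy.1, four_eq, four_eq p' q', hpq, hef], by rw [← hpq]; exact hy.2.1,
    by rw [← hpq]; exact hy.2.2⟩

/-- the word of an admissible circle, any names -/
theorem word_of_adm (hz : DPt T z a b c d) (C : Ctr U T z a b c d e f)
    (hA : AdmC T z a b c d e f) {a' b' c' d' e' f' : Fin 6} (C' : Ctr U T z a' b' c' d' e' f') :
    RawT (Xs T z a' b' c' d' e' f') := by
  have hef : ({e, f} : Set (Fin 6)) = {e', f'} := by rw [ef_eq C, ef_eq C']
  obtain ⟨p, hp⟩ := hz.arc1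
  obtain ⟨p2, hp2⟩ := hz.arc2
  have s1 : ({a, b} : Set (Fin 6)) = {a', b'} ∨ ({a, b} : Set (Fin 6)) = {c', d'} := by
    have h1 := hp.mem
    rcases C'.pairs p hp.1 (by rw [h1]; exact hp.2) (by
      rw [h1, hz.pal]; rintro i (rfl | rfl) <;> simp) with h2 | h2
    · left; rw [← h1, h2]
    · right; rw [← h1, h2]
  have s2 : ({c, d} : Set (Fin 6)) = {a', b'} ∨ ({c, d} : Set (Fin 6)) = {c', d'} := by
    have h1 := hp2.mem
    rcases C'.pairs p2 hp2.1 (by rw [h1]; exact hp2.2) (by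
      rw [h1, hz.pal]; rintro i (rfl | rfl) <;> simp) with h2 | h2
    · left; rw [← h1, h2]
    · right; rw [← h1, h2]
  have hdis : ({a, b} : Set (Fin 6)) ≠ {c, d} := by
    intro h1
    have : a ∈ ({c, d} : Set (Fin 6)) := by rw [← h1]; simp
    rcases this with h2 | h2
    exacts [hz.ac h2, hz.ad h2]
  rcases s1 with s1 | s1
  · have s2' : ({c, d} : Set (Fin 6)) = {c', d'} :=
      s2.resolve_left fun s2 => hdis (s1.trans s2.symm)
    refine C'.rawT_exc (fun y hy => ?_) fun y y' hy hy' hyy h1 h2 => ?_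
    · rcases hA.1 y hy with h1 | h1 | h1
      · exact Or.inl h1
      · exact Or.inr (Or.inl (hx_congr s1 hef h1))
      · exact Or.inr (Or.inr (hx_congr s2' hef h1))
    · exact hA.2 y y' hy hy' hyy (hx_congr s1.symm hef.symm h1) (hx_congr s2'.symm hef.symm h2)
  · have s2' : ({c, d} : Set (Fin 6)) = {a', b'} :=
      s2.resolve_right fun s2 => hdis (s1.trans s2.symm)
    refine C'.rawT_exc (fun y hy => ?_) fun y y' hy hy' hyy h1 h2 => ?_
    · rcases hA.1 y hy with h1 | h1 | h1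
      · exact Or.inl h1
      · exact Or.inr (Or.inr (hx_congr s1 hef h1))
      · exact Or.inr (Or.inl (hx_congr s2' hef h1))
    · exact hA.2 y' y hy' hy (by rw [dist_comm]; exact hyy) (hx_congr s1.symm hef.symm h2)
        (hx_congr s2'.symm hef.symm h1)

/-- **admissible circles are good** -/
theorem good_of_adm (h : Irr U T) (hz : DPt T z a b c d) (nd : [a, b, c, d, e, f].Nodup)
    (hA : AdmC T z a b c d e f) : Good U T z := by
  have C := ctr_of_dpt h hz nd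
  have hcl : ∀ y, (y ∈ closure (Ex T z {a, b}) ∨ y ∈ closure (Ex T z {c, d})) →
      (T y).ncard ≤ 3 := by
    rintro y (hy | hy)
    · exact C.le_of_pair (hA.1 y (dist_of_closure hy)) (l := 2) hy (by decide)
    · exact C.le_of_pair (hA.1 y (dist_of_closure hy)) (l := 3) hy (by decide)
  -- two-element palettes of exact arcs
  have hpr : ∀ P : Set (Fin 6), P ⊆ T z → ∀ y, y ∈ Ex T z P → P = {a, b} ∨ P = {c, d} := by
    intro P hP y hy
    have h1 := ex_self hy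
    rcases h.twoPairs hz y hy.1 (by rw [h1]; exact hy.2) (by rw [h1]; exact hP) with h2 | h2
    · left; rw [← h1, h2]
    · right; rw [← h1, h2]
  refine ⟨⟨fun a' b' c' d' e' f' C' => word_of_adm hz C hA C', ?_⟩, ?_⟩
  · intro P hP hP2 y hy
    rcases hpr P hP _ (closure_nonempty_iff.1 ⟨y, hy⟩).some_mem with rfl | rfl
    · exact hcl y (Or.inl hy)
    · exact hcl y (Or.inr hy)
  · intro y hy
    rcases hA.1 y hy with h1 | h1 | h1
    · exact Or.inl h1
    · refine Or.inr ⟨{a, b}, ?_, Set.ncard_pair hz.ab, hz.arc1, pal_of_hx C h1⟩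
      rw [hz.pal]; rintro i (rfl | rfl) <;> simp
    · refine Or.inr ⟨{c, d}, ?_, Set.ncard_pair hz.cd, hz.arc2, pal_of_hx C.swapAC h1⟩
      rw [hz.pal]; rintro i (rfl | rfl) <;> simp

/-- **No two-pair centre**: every circle is admissible or carries two clean ends of each of two
complementary types, and the latter is impossible -/
theorem no_D_of_adm (h : Irr U T) (h4 : ∀ z, (T z).ncard ≤ 4) (h22 : ∀ z, ¬ Has22 T z)
    (hD : ∀ z a b c d, DPt T z a b c d →
      (∃ e f, [a, b, c, d, e, f].Nodup ∧ AdmC T z a b c d e f) ∨ Has22 T z) :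
    ∀ z a b c d, DPt T z a b c d → False :=
  no_D_of_22 h h4 h22 fun z a b c d hz => by
    rcases hD z a b c d hz with ⟨e, f, nd, hA⟩ | h1
    · exact Or.inl (good_of_adm h hz nd hA)
    · exact Or.inr h1

end Vale.Agent.P032.S5.H358
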