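import Vale.Agent.P032.S5.H12.SNet

/-!
# P032: the class (I) (two adjacent special ends) does not exist (helper96)

`IR`: at a centre of class (I) the arcs of the two double ends point away from the single end.
`EqO`: at a good centre the two double ends have the same orientation.
`SNet.kill_mid`: if every middle centre has the rule `IR`, and every centre has `IR` or `EqO`, then there
is no middle centre; `SNet.kill_I`: and no centre with the rule `IR`.
-/

open Complex Set

namespace Vale.Agent.P032.Net.H12.SNet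

open Vale.Agent.P032.Net.H672

variable {T : ℂ → Set (Fin 6)} {E : ℂ → ℂ → Prop} {o : ℂ → ℂ → ℝ} {inn : ℂ → ℂ → Fin 6}
  {M v q q' : ℂ}

/-- the arcs of the double ends point away from the single end -/
def IR (T : ℂ → Set (Fin 6)) (E : ℂ → ℂ → Prop) (o : ℂ → ℂ → ℝ) (z : ℂ) : Prop :=
  ∀ v q q' : ℂ, Mid T E z v q q' → o z q * dt (v - z) (q - z) < 0

/-- the two double ends have the same orientation -/
def EqO (T : ℂ → Set (Fin 6)) (E : ℂ → ℂ → Prop) (o : ℂ → ℂ → ℝ) (z : ℂ) : Prop :=
  ∀ v q q' : ℂ, Mid T E z v q q' → o z q = o z q'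

/-- the rule gives different orientations -/
theorem ir_ne (D : SNet T E o inn) (hI : IR T E o M) (m : Mid T E M v q q') :
    o M q ≠ o M q' := by
  intro h
  have h1 := hI _ _ _ m
  have h2 := hI _ _ _ (mid_swap m)
  have h3 := D.s12 m
  rw [← h] at h2
  have h4 := mul_pos_of_neg_of_neg h1 h2
  have h5 : o M q * dt (v - M) (q - M) * (o M q * dt (v - M) (q' - M)) =
      o M q ^ 2 * (dt (v - M) (q - M) * dt (v - M) (q' - M)) := by ring
  rw [h5] at h4
  nlinarith [sq_nonneg (o M q)]

theorem kill_mid_aux (D : SNet T E o inn)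
    (hO : ∀ {M v q q' : ℂ}, Mid T E M v q q' → Sg (-1) M v q q' → IR T E o M)
    (hK : ∀ {M v q q' : ℂ}, Mid T E M v q q' → IR T E o M ∨ EqO T E o M)
    (m : Mid T E M v q q') (hs : Sg (-1) M v q q') (h : o M q = -o M v) : False := by
  obtain ⟨w, m1⟩ := D.mid_side m
  have hI := hO m hs
  have i1 := hI _ _ _ m
  rw [h] at i1
  have f1 := D.flip_v m hs
  rw [neg_neg, one_mul] at f1
  have e1 : dt (q - (v + q - M)) (v - (v + q - M)) = dt (v - M) (q - M) := by
    rw [show q - (v + q - M) = -(v - M) by ring, show v - (v + q - M) = -(q - M) by ring,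
      dt_neg_left, dt_neg_right, neg_neg]
  -- the second centre has not the rule
  have hN : ¬ IR T E o (v + q - M) := by
    intro hI'
    have i2 := hI' _ _ _ m1
    rw [e1, f1] at i2
    linarith
  have hE : EqO T E o (v + q - M) := (hK m1).resolve_left hN
  obtain ⟨ε, hε⟩ := D.exists_sg m1
  have hε1 : ε = 1 := by
    rcases hε.1 with h5 | h5
    · exact h5
    · rw [h5] at hε
      exact absurd (hO m1 hε) hN
  rw [hε1] at hε
  have g1 := D.flip_q' m1 hε
  rw [h] at g1
  have hov := D.ori m.hv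
  -- the third centre
  obtain ⟨w', m2⟩ := D.mid_side (mid_swap m1)
  obtain ⟨δ, hδ⟩ := D.exists_sg m2
  have eM : q + v - (v + q - M) = M := by ring
  have mM : Mid T E (q + v - (v + q - M)) v q q' := by rw [eM]; exact m
  have sM : Sg (-1) (q + v - (v + q - M)) v q q' := by rw [eM]; exact hs
  have hl := D.sign_law m1 mM m2 sM hδ
  rw [← hE _ _ _ m1, f1] at hl
  have hδ1 : δ = -1 := by
    rcases hov with h' | h' <;> rw [h'] at hl <;> linarith
  rw [hδ1] at hδ
  have i3 := hO m2 hδ _ _ _ m2
  have f3 := D.flip_v' m1 hε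
  rw [show w - (q + w - (v + q - M)) = -(q - (v + q - M)) by ring,
    show q - (q + w - (v + q - M)) = -(w - (v + q - M)) by ring, dt_neg_left, dt_neg_right,
    neg_neg, f3, g1] at i3
  have h12 := D.s12 m1
  rw [e1] at h12
  have hsq := pm_sq hov
  nlinarith [mul_pos_of_neg_of_neg i1 i3]

/-- **no middle centre** -/
theorem kill_mid (D : SNet T E o inn)
    (hO : ∀ {M v q q' : ℂ}, Mid T E M v q q' → Sg (-1) M v q q' → IR T E o M)
    (hK : ∀ {M v q q' : ℂ}, Mid T E M v q q' → IR T E o M ∨ EqO T E o M)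
    (m : Mid T E M v q q') (hs : Sg (-1) M v q q') : False := by
  by_cases h : o M q = -o M v
  · exact D.kill_mid_aux hO hK m hs h
  · refine D.kill_mid_aux hO hK (mid_swap m) hs.swap ?_
    have hne := D.ir_ne (hO m hs) m
    rcases D.ori m.hv with h1 | h1 <;> rcases D.ori m.hq with h2 | h2 <;>
      rcases D.ori m.hq' with h3 | h3 <;> rw [h1] at h ⊢ <;> rw [h2] at h hne <;>
      rw [h3] at hne ⊢ <;> first
        | exact absurd rfl hne
        | (exfalso; apply h; norm_num; done)
        | norm_num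

/-- **the class (I) does not exist** -/
theorem kill_I (D : SNet T E o inn)
    (hO : ∀ {M v q q' : ℂ}, Mid T E M v q q' → Sg (-1) M v q q' → IR T E o M)
    (hK : ∀ {M v q q' : ℂ}, Mid T E M v q q' → IR T E o M ∨ EqO T E o M)
    (hI : IR T E o M) (m : Mid T E M v q q') : False := by
  have h1 : ∀ {M v q q' : ℂ} {ε : ℝ}, Mid T E M v q q' → Sg ε M v q q' → ε = 1 := by
    intro M v q q' ε m hε
    rcases hε.1 with h5 | h5
    · exact h5
    · rw [h5] at hε
      exact (D.kill_mid hO hK m hε).elim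
  obtain ⟨w, m1⟩ := D.mid_side m
  obtain ⟨w', m2⟩ := D.mid_side (mid_swap m)
  obtain ⟨ε, hε⟩ := D.exists_sg m1
  obtain ⟨δ, hδ⟩ := D.exists_sg m2
  have hl := D.sign_law m m1 m2 hε hδ
  rw [h1 m1 hε, h1 m2 hδ, one_mul, one_mul] at hl
  exact D.ir_ne hI m hl

end Vale.Agent.P032.Net.H12.SNet

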