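import Vale.Agent.P032.S5.H358.XD
import Vale.Agent.P032.S5.H503.WebI3

/-!
# P032: row XD with the classes (I), (V), (III) present

`Tab3 E T z`: the facts `Tab T z`, where a single end strictly between the two double ends may also be
`Wide E` (helper897, helper503: the double ends are more than 120 degrees apart and have opposite
orientations, or, if `E`, both have the orientation opposite to the single end).  From `Good` or `Tab3`
at every two-pair centre no centre has a (2,2) network; the centres without a (2,2) network which are not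
good remain as the set `S` of `no_D_of_tab3`.
-/

open Set Filter Topology Metric

noncomputable section

namespace Vale.Agent.P032.S5.H358

open Vale.Agent.P032.Six Vale.Agent.P032.Words Vale.Agent.P032.S5.H767 Vale.Agent.P032.S5.H349
open Vale.Agent.P032.Net (Opp Bad22 Wide)
open Vale.Agent.P032.S5.H448 (Tab tab_good le_two S12 Out11 OppBad)

variable {U : Fin 6 → Set ℂ} {T : ℂ → Set (Fin 6)} {z : ℂ} {E : Prop}

/-- counts (1,2), the single end strictly between the two others: another network of `z` is `Bad22`,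
or the two others are `Wide` -/
def OppBad3 (E : Prop) (T : ℂ → Set (Fin 6)) (z : ℂ) : Prop :=
  ∀ (X : Set (Fin 6)) (v q q' : ℂ), EE T z v ∧ T v = X → EE T z q ∧ T q = Xᶜ →
    EE T z q' ∧ T q' = Xᶜ → q ≠ q' → (∀ v', EE T z v' ∧ T v' = X → v' = v) →
    (∀ s, EE T z s ∧ T s = Xᶜ → s = q ∨ s = q') → Opp (v - z) (q - z) (q' - z) →
    (∃ Y : Set (Fin 6), Bad22 (PE T Y) (PE T Yᶜ) z) ∨ Wide E (ore T) z v q q'

/-- no (2,2) network with the ends of one type between the ends of the other type and all four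
orientations equal -/
def F22 (T : ℂ → Set (Fin 6)) (z : ℂ) : Prop :=
  ∀ {v₁ v₂ q₁ q₂ : ℂ}, EE T z v₁ → EE T z v₂ → v₁ ≠ v₂ → T v₂ = T v₁ → EE T z q₁ →
    EE T z q₂ → q₁ ≠ q₂ → T q₁ = (T v₁)ᶜ → T q₂ = (T v₁)ᶜ → Opp (v₁ - z) (q₁ - z) (q₂ - z) →
    Opp (v₂ - z) (q₁ - z) (q₂ - z) → ore T z q₁ = ore T z v₁ → ore T z q₂ = ore T z v₁ →
    ore T z v₂ = ore T z v₁ → False

/-- **the facts on the circle of `z`** -/
structure Tab3 (E : Prop) (T : ℂ → Set (Fin 6)) (z : ℂ) : Prop where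
  s12 : S12 T z
  out : Out11 T z
  bad : OppBad3 E T z
  f22 : E → F22 T z

theorem _root_.Vale.Agent.P032.S5.H448.Tab.three3 (K : Tab T z) (hF : E → F22 T z) :
    Tab3 E T z where
  s12 := K.s12
  out := K.out
  bad := fun X v q q' hv hq hq' hne h1 h2 ho =>
    Or.inl (K.bad X v q q' hv hq hq' hne h1 h2 ho)
  f22 := hF

/-- the global form; `Tab3 E T z` is needed only at the centres with two complementary ends -/
theorem tabU3_of (h : Irr U T) (h4 : ∀ z, (T z).ncard ≤ 4)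
    (ht : ∀ z v q, EE T z v → EE T z q → T q = (T v)ᶜ → Tab3 E T z) : TabU3 E T where
  s12 := fun {z v q q'} hv hq hq' hc hc' hne h1 h2 =>
    (ht z v q hv hq hc).s12 (T v) v q q' ⟨hv, rfl⟩ ⟨hq, hc⟩ ⟨hq', hc'⟩ hne
      (fun m hm => h1 m hm.1 hm.2) (fun m hm => h2 m hm.1 hm.2)
  out := fun {z v q} hv hq hc h1 h2 =>
    (ht z v q hv hq hc).out (T v) v q ⟨hv, rfl⟩ ⟨hq, hc⟩
      (fun m hm => h1 m hm.1 hm.2) (fun m hm => h2 m hm.1 hm.2)
  f2 := fun {z v q q'} hv hq hq' hc hc' hne h1 ho =>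
    (ht z v q hv hq hc).bad (T v) v q q' ⟨hv, rfl⟩ ⟨hq, hc⟩ ⟨hq', hc'⟩ hne
      (fun m hm => h1 m hm.1 hm.2)
      (fun _ hm => le_two h h4 (X := T v) ⟨hv, rfl⟩ ⟨hq, hc⟩ ⟨hq', hc'⟩ hne hm) ho
  f22 := fun hE {z v₁ v₂ q₁ q₂} a1 a2 a3 a4 b1 b2 b3 b4 b5 c1 c2 d1 d2 d3 =>
    (ht z v₁ q₁ a1 b1 b4).f22 hE a1 a2 a3 a4 b1 b2 b3 b4 b5 c1 c2 d1 d2 d3

/-- the facts on the ends at all centres -/
theorem tabU3_all (h : Irr U T) (h4 : ∀ z, (T z).ncard ≤ 4) (hG : E → ∀ z, OkC U T z → F22 T z)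
    (hT : ∀ z a b c d, DPt T z a b c d → OkC U T z ∨ Tab3 E T z) : TabU3 E T :=
  tabU3_of h h4 fun z v q hv _ _ => by
    obtain ⟨a, b, c, d, h1, h2⟩ := hv.names
    rcases hT z a b c d (hv.dpt h h1 h2) with K | K
    · exact (tab_good h h4 (goodC_of_okC K)).three3 fun hE => hG hE z K
    · exact K

/-- **no centre has a (2,2) network** -/
theorem no_has22_3 (h : Irr U T) (h4 : ∀ z, (T z).ncard ≤ 4) (hL : LawEE T) (ht : TabU3 E T)
    (z : ℂ) : ¬ Has22 T z := by
  rintro ⟨v₁, v₂, q₁, q₂, h1, h2, h12, k1, k2, k12, e2, f1, f2⟩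
  exact no22_EE3 h h4 (lp3EE h h4) hL ht h1 h2 h12 k1 k2 k12 e2 f1 f2

/-- **Row XD, all classes**: every two-pair centre is good, or has the facts and a (2,2) network, or
has the facts and is in `S`; the set `S` is excluded in the world without (2,2) networks. -/
theorem no_D_of_tab3 (h : Irr U T) (h4 : ∀ z, (T z).ncard ≤ 4) (hL : LawEE T)
    (hG : E → ∀ z, OkC U T z → F22 T z) {S : ℂ → Prop}
    (hD : ∀ z a b c d, DPt T z a b c d →
      Good U T z ∨ (Tab3 E T z ∧ Has22 T z) ∨ (Tab3 E T z ∧ S z))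
    (hS : (∀ z, ¬ Has22 T z) → TabU3 E T →
      (∀ z a b c d, DPt T z a b c d → Good U T z ∨ (Tab3 E T z ∧ S z)) → ∀ z, ¬ S z) :
    ∀ z a b c d, DPt T z a b c d → False := by
  have hU : TabU3 E T := tabU3_all h h4 hG fun z a b c d hz =>
    (hD z a b c d hz).elim (fun K => Or.inl K.1) fun K => Or.inr (K.elim (fun K => K.1) fun K => K.1)
  have h22 := no_has22_3 h h4 hL hU
  have hD' : ∀ z a b c d, DPt T z a b c d → Good U T z ∨ (Tab3 E T z ∧ S z) :=
    fun z a b c d hz => by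
      rcases hD z a b c d hz with K | K | K
      · exact Or.inl K
      · exact absurd K.2 (h22 z)
      · exact Or.inr K
  exact no_D_of_22 h h4 h22 fun z a b c d hz =>
    Or.inl ((hD' z a b c d hz).resolve_right fun K => hS h22 hU hD' z K.2)

/-- the same for the classes (I) and (V) only -/
theorem no_D_of_tab3' (h : Irr U T) (h4 : ∀ z, (T z).ncard ≤ 4) (hL : LawEE T) {S : ℂ → Prop}
    (hD : ∀ z a b c d, DPt T z a b c d →
      Good U T z ∨ (Tab3 False T z ∧ Has22 T z) ∨ (Tab3 False T z ∧ S z))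
    (hS : (∀ z, ¬ Has22 T z) → TabU3 False T →
      (∀ z a b c d, DPt T z a b c d → Good U T z ∨ (Tab3 False T z ∧ S z)) → ∀ z, ¬ S z) :
    ∀ z a b c d, DPt T z a b c d → False :=
  no_D_of_tab3 h h4 hL (fun h => h.elim) hD hS

end Vale.Agent.P032.S5.H358
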