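import Vale.Agent.P032.S5.H12.VW2
import Vale.Agent.P032.S5.H358.KillIS
import Vale.Agent.P032.S5.H358.XD3
import Vale.Agent.P032.S5.H503.Law

/-!
# P032: the class (I) (two adjacent special ends) does not exist: the wrapper

`IC T z`: the facts at a centre of the class (I): no (1,1); the arcs of the double ends of a (1,2)
point away from the single end; the points with more than three colours.
`EqD T z`: the two double ends of a (1,2) network have the same orientation.
`no_D_I`: every two-pair centre is good with `EqD`, or has the facts and a (2,2) network, or has the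
facts and is of class (I): impossible.
-/

open Set Filter Topology Metric

noncomputable section

namespace Vale.Agent.P032.S5.H358

open Vale.Agent.P032.Six Vale.Agent.P032.Words Vale.Agent.P032.S5.H767 Vale.Agent.P032.S5.H349
open Vale.Agent.P032.Net.H672 Vale.Agent.P032.Net.H12 Vale.Agent.P032.S5.H12
open Vale.Agent.P032.Net (Opp)

variable {U : Fin 6 → Set ℂ} {T : ℂ → Set (Fin 6)} {z : ℂ} {E : Prop}

/-- the two double ends of a (1,2) network have the same orientation -/
def EqD (T : ℂ → Set (Fin 6)) (z : ℂ) : Prop :=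
  ∀ {v q q' : ℂ}, Mid T (EE T) z v q q' → (∀ m, EE T z m → T m = T v → m = v) →
    ore T z q = ore T z q'

/-- the facts at a centre of the class (I) -/
structure IC (T : ℂ → Set (Fin 6)) (z : ℂ) : Prop where
  ex : ∃ v q, EE T z v ∧ EE T z q ∧ T q = (T v)ᶜ
  L2 : ∀ {v q}, EE T z v → EE T z q → T q = (T v)ᶜ →
    (∃ v', v' ≠ v ∧ EE T z v' ∧ T v' = T v) ∨ ∃ q', q' ≠ q ∧ EE T z q' ∧ T q' = T q
  away : ∀ {v q q'}, Mid T (EE T) z v q q' → (∀ m, EE T z m → T m = T v → m = v) →
    ore T z q * cr (v - z) (q - z) < 0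
  pts : PtV T z

/-- **Row XD with the class (I)**: every two-pair centre is good, or has the facts and a
(2,2) network, or has the facts and is of class (I); at the good centres the two double ends of a
(1,2) network have the same orientation. -/
theorem no_D_I (h : Irr U T) (h4 : ∀ z, (T z).ncard ≤ 4)
    (hG : E → ∀ z, OkC U T z → F22 T z)
    (hD : ∀ z a b c d, DPt T z a b c d →
      (Good U T z ∧ EqD T z) ∨ (Tab3 E T z ∧ Has22 T z) ∨ (Tab3 E T z ∧ IC T z)) :
    ∀ z a b c d, DPt T z a b c d → False := by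
  have hL : LawEE T := lawEE_of h h4
  refine no_D_of_tab3 (S := IC T) h h4 hL hG
    (fun z a b c d hz => (hD z a b c d hz).imp (fun K => K.1) id) ?_
  intro h22 ht _ z K
  have hD' : ∀ z v, EE T z v → (Good U T z ∧ EqD T z) ∨ IC T z := by
    intro z v hv
    obtain ⟨a, b, c, d, hz⟩ := dpt_of_ee h hv
    rcases hD z a b c d hz with h5 | h5 | h5
    · exact Or.inl h5
    · exact absurd h5.2 (h22 z)
    · exact Or.inr h5.2
  have W : World T :=
    { h11 := fun {z v q} hv hq hc => by
        rcases hD' z v hv with h5 | h5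
        · exact (l23_good h h4 h5.1.1).L2 hv hq hc
        · exact h5.L2 hv hq hc
      h22 := h22
      sec := fun hv hq hq' hne e1 e2 hs e3 =>
        second_EE3 h h4 (lp3EE h h4) hL ht hv hq hq' hne e1 e2 hs e3
      s12 := fun hv hq hq' hc hc' hne h1 h2 => ht.s12 hv hq hq' hc hc' hne h1 h2
      com := common_pts h fun z a b c d hz => by
        rcases hD z a b c d hz with h5 | h5 | h5
        · exact fun y hy => (h5.1.2 y hy).imp id Or.inl
        · exact absurd h5.2 (h22 z)
        · exact h5.2.pts }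
  have D := W.snet h h4
  have hIR : ∀ {M : ℂ}, IC T M → SNet.IR T (EE T) (ore T) M := fun K _ _ _ m =>
    K.away m fun _ hs e => W.single m hs e
  have hO : ∀ {M v q q' : ℂ}, Mid T (EE T) M v q q' → Sg (-1) M v q q' →
      SNet.IR T (EE T) (ore T) M := by
    intro M v q q' m hs
    rcases hD' M v m.hv with h5 | h5
    · exfalso
      obtain ⟨α, β, γ, hα, hβ, hγ, hl⟩ := (l23_good h h4 h5.1.1).L3 m.hv m.hq m.hq' m.e m.e' m.ne
        (fun s hs e => W.single m hs e) (fun s hs e => le_two_mid h h4 m hs e)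
      have := (sg_of_pos hα hβ hγ hl).uniq hs (D.nondeg m)
      norm_num at this
    · exact hIR h5
  have hK : ∀ {M v q q' : ℂ}, Mid T (EE T) M v q q' →
      SNet.IR T (EE T) (ore T) M ∨ SNet.EqO T (EE T) (ore T) M := by
    intro M v q q' m
    rcases hD' M v m.hv with h5 | h5
    · exact Or.inr fun _ _ _ m' => h5.2 m' fun _ hs e => W.single m' hs e
    · exact Or.inl (hIR h5)
  obtain ⟨v, q, hv, hq, hc⟩ := K.ex
  rcases K.L2 hv hq hc with ⟨v', h5, h6, h7⟩ | ⟨q', h5, h6, h7⟩
  · have e : T v' = (T q)ᶜ := by rw [h7, hc, compl_compl]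
    have e' : T v = (T q)ᶜ := by rw [hc, compl_compl]
    exact D.kill_I hO hK (hIR K) ⟨hq, hv, h6, e', e, h5.symm⟩
  · exact D.kill_I hO hK (hIR K) ⟨hv, hq, h6, hc, h7.trans hc, h5.symm⟩

end Vale.Agent.P032.S5.H358
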