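import Vale.Agent.P032.Words.H358.Dir
import Vale.Agent.P032.S5.H358.KillI

/-!
# P032: on a clean circle the two double ends of a (1,2) network have the same orientation

`eqD_ok`: `OkC U T z → EqD T z`.  The two positions of `Dir.L3dir` do not fit with the network of the
other ends of the arcs.
-/

open Set Filter Topology Metric

noncomputable section

namespace Vale.Agent.P032.S5.H358

open Vale.Agent.P032.Six Vale.Agent.P032.Words Vale.Agent.P032.S5.H767 Vale.Agent.P032.S5.H349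
open Vale.Agent.P032.Net.H672 Vale.Agent.P032.Net.H12 Vale.Agent.P032.S5.H12
open Vale.Agent.P032.S5.H448 (le_two)

variable {U : Fin 6 → Set ℂ} {T : ℂ → Set (Fin 6)} {z : ℂ} {a b c d e f : Fin 6}

/-- the exact arc is on one side in the angle coordinate -/
theorem arc_side (h : Irr U T) {V o : ℝ} (hO : OEnd T z (pt z V) o) {P : Set (Fin 6)}
    (hP : T z ∩ T (pt z V) = P) :
    (o = 1 → ∀ᶠ u in 𝓝[<] V, pt z u ∈ closure (Ex T z P)) ∧
    (o = -1 → ∀ᶠ u in 𝓝[>] V, pt z u ∈ closure (Ex T z P)) := by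
  obtain ⟨-, -, -, -, h2, ε, hε, h1⟩ := hO
  have hPz : P ⊆ T z := by rw [← hP]; exact inter_subset_left
  rw [hP] at h1 h2
  have hpi := Real.pi_pos
  set δ := ε * (3 / Real.pi) with hδ
  have hδ0 : 0 < δ := by positivity
  have harc : ∀ s, 0 < s → s < δ → pt z (V + -(o * s)) ∈ closure (Ex T z P) := by
    intro s hs0 hs
    have h3 : s / (3 / Real.pi) ∈ Ioo 0 ε :=
      ⟨by positivity, by rw [div_lt_iff₀ (by positivity)]; exact hs⟩
    have h5 := h1 _ h3
    rw [pt_rot] at h5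
    have e : V + -(o * (s / (3 / Real.pi))) * (3 / Real.pi) = V + -(o * s) := by
      have : s / (3 / Real.pi) * (3 / Real.pi) = s := div_mul_cancel₀ _ (by positivity)
      linear_combination (-o) * this
    rw [e] at h5
    exact subset_closure ⟨dist_pt z _, h.pair_open h2 hPz h5.subset⟩
  constructor
  · rintro rfl
    filter_upwards [Ioo_mem_nhdsLT (show V - δ < V by linarith)] with u hu
    have := harc (V - u) (by linarith [hu.2]) (by linarith [hu.1])
    rwa [show V + -(1 * (V - u)) = u by ring] at this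
  · rintro rfl
    filter_upwards [Ioo_mem_nhdsGT (show V < V + δ by linarith)] with u hu
    have := harc (u - V) (by linarith [hu.1]) (by linarith [hu.2])
    rwa [show V + -(-1 * (u - V)) = u by ring] at this

theorem inter_ab (C : Ctr U T z a b c d e f) {y : ℂ} (hT : T y = {a, b, e}) :
    T z ∩ T y = {a, b} := by
  obtain ⟨⟨ab, ac, ad, ae, af⟩, ⟨bc, bd, be, bf⟩, ⟨cd, ce, cf⟩, ⟨de, df⟩, ef⟩ := nd_ne C.nd
  rw [C.pal, hT]
  ext i
  simp only [mem_inter_iff, mem_insert_iff, mem_singleton_iff]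
  constructor
  · rintro ⟨h1, h2⟩
    rcases h2 with rfl | rfl | rfl
    · exact Or.inl rfl
    · exact Or.inr rfl
    · rcases h1 with h1 | h1 | h1 | h1
      exacts [Or.inl h1, Or.inr h1, absurd h1 (ce.symm), absurd h1 (de.symm)]
  · rintro (rfl | rfl)
    · exact ⟨Or.inl rfl, Or.inl rfl⟩
    · exact ⟨Or.inr (Or.inl rfl), Or.inr (Or.inl rfl)⟩

theorem inter_cd (C : Ctr U T z a b c d e f) {y : ℂ} (hT : T y = {c, d, f}) :
    T z ∩ T y = {c, d} := inter_ab C.swapAC.swapEF hT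

/-- the mark at an end `e|ab` with its direction -/
theorem mark02 (C : Ctr U T z a b c d e f) {V o : ℝ} (hT : T (pt z V) = {a, b, e})
    (hc : Cln T z (pt z V)) (hO : OEnd T z (pt z V) o) :
    (o = 1 → Mark (Xs T z a b c d e f) 2 0 V) ∧ (o = -1 → Mark (Xs T z a b c d e f) 0 2 V) := by
  obtain ⟨k1, k2⟩ := arc_side C.irr hO (inter_ab C hT)
  constructor
  · intro ho
    rcases end02 C hT hc with h5 | h5
    · obtain ⟨u, h6, h7⟩ := (h5.left.and (k1 ho)).exists
      exact absurd h7 h6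
    · exact h5
  · intro ho
    rcases end02 C hT hc with h5 | h5
    · exact h5
    · obtain ⟨u, h6, h7⟩ := (h5.right.and (k2 ho)).exists
      exact absurd h7 h6

/-- the mark at an end `f|cd` with its direction -/
theorem mark13 (C : Ctr U T z a b c d e f) {V o : ℝ} (hT : T (pt z V) = {c, d, f})
    (hc : Cln T z (pt z V)) (hO : OEnd T z (pt z V) o) :
    (o = 1 → Mark (Xs T z a b c d e f) 3 1 V) ∧ (o = -1 → Mark (Xs T z a b c d e f) 1 3 V) := by
  obtain ⟨k1, k2⟩ := arc_side C.irr hO (inter_cd C hT)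
  constructor
  · intro ho
    rcases end13 C hT hc with h5 | h5
    · obtain ⟨u, h6, h7⟩ := (h5.left.and (k1 ho)).exists
      exact absurd h7 h6
    · exact h5
  · intro ho
    rcases end13 C hT hc with h5 | h5
    · exact h5
    · obtain ⟨u, h6, h7⟩ := (h5.right.and (k2 ho)).exists
      exact absurd h7 h6

theorem compl_abe (C : Ctr U T z a b c d e f) : ({a, b, e} : Set (Fin 6))ᶜ = {c, d, f} := by
  obtain ⟨⟨ab, ac, ad, ae, af⟩, ⟨bc, bd, be, bf⟩, ⟨cd, ce, cf⟩, ⟨de, df⟩, ef⟩ := nd_ne C.nd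
  ext i
  simp only [mem_compl_iff, mem_insert_iff, mem_singleton_iff, not_or]
  constructor
  · rintro ⟨h1, h2, h3⟩
    rcases C.all i with h5 | h5 | h5 | h5 | h5 | h5
    · exact absurd h5 h1
    · exact absurd h5 h2
    · exact Or.inl h5
    · exact Or.inr (Or.inl h5)
    · exact absurd h5 h3
    · exact Or.inr (Or.inr h5)
  · rintro (rfl | rfl | rfl)
    · exact ⟨ac.symm, bc.symm, ce⟩
    · exact ⟨ad.symm, bd.symm, de⟩
    · exact ⟨af.symm, bf.symm, ef.symm⟩

/-- **the positions**, in the form of ends -/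
theorem dirA (h : Irr U T) (h4 : ∀ z, (T z).ncard ≤ 4) (K : OkC U T z)
    (C : Ctr U T z a b c d e f) {V Q Q' : ℝ} (hv : EE T z (pt z V)) (hq : EE T z (pt z Q))
    (hq' : EE T z (pt z Q')) (Tv : T (pt z V) = {a, b, e}) (Tq : T (pt z Q) = {c, d, f})
    (Tq' : T (pt z Q') = {c, d, f}) (oq : ore T z (pt z Q) = -1) (oq' : ore T z (pt z Q') = 1)
    (hs : ∀ m, EE T z m → T m = {a, b, e} → m = pt z V)
    (hs' : ∀ m, EE T z m → T m = {c, d, f} → m = pt z Q ∨ m = pt z Q') :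
    ∃ n m : ℤ, (ore T z (pt z V) = 1 ∧ V + 3 ≤ Q + 6 * (n : ℝ) ∧ Q + 6 * (n : ℝ) < V + 4 ∧
        V + 1 ≤ Q' + 6 * (m : ℝ) ∧ Q' + 6 * (m : ℝ) < V + 2) ∨
      (ore T z (pt z V) = -1 ∧ V + 4 ≤ Q + 6 * (n : ℝ) ∧ Q + 6 * (n : ℝ) < V + 5 ∧
        V + 2 ≤ Q' + 6 * (m : ℝ) ∧ Q' + 6 * (m : ℝ) < V + 3) := by
  have hcc := compl_abe C
  have hc : T (pt z Q) = (T (pt z V))ᶜ := by rw [Tq, Tv, hcc]
  have hc' : T (pt z Q') = (T (pt z V))ᶜ := by rw [Tq', Tv, hcc]
  have ec : ∀ {q}, T q = (T (pt z V))ᶜ → T (pt z V) = (T q)ᶜ := fun h5 => by rw [h5, compl_compl]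
  have clV : ∀ m, dist m z = 1 → T m = {a, b, e} → Cln T z m := fun m hm hT =>
    hv.cln h h4 hq hc hm (hT.trans Tv.symm)
  have clQ : ∀ m, dist m z = 1 → T m = {c, d, f} → Cln T z m := fun m hm hT =>
    hq.cln h h4 hv (ec hc) hm (hT.trans Tq.symm)
  have hX3 : ({a, b, e} : Set (Fin 6)).ncard = 3 := by rw [← Tv]; exact hv.card_v
  have hY3 : ({a, b, e} : Set (Fin 6))ᶜ.ncard = 3 := by rw [hcc, ← Tq]; exact hq.card_v
  have back : ∀ {m}, En T {a, b, e} z m → EE T z m ∧ T m = {a, b, e} := fun h5 =>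
    ⟨h5.ee hX3 (hv.arc_compl Tv), h5.1⟩
  have back' : ∀ {m}, En T ({a, b, e} : Set (Fin 6))ᶜ z m → EE T z m ∧ T m = {c, d, f} := by
    intro m h5
    refine ⟨h5.ee hY3 ?_, h5.1.trans hcc⟩
    exact hq.arc_compl (Tq.trans hcc.symm)
  have hVu : ∀ u, u ∈ Xs T z a b c d e f 0 → u ∈ Xs T z a b c d e f 2 →
      ∃ n : ℤ, u = V + 6 * n := fun u h0 h2 =>
    marks_ok C K rfl clV (hv.en Tv) (fun m hm => hs m (back hm).1 (back hm).2) u h0 h2
  have hQu : ∀ u, u ∈ Xs T z a b c d e f 1 → u ∈ Xs T z a b c d e f 3 →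
      ∃ n : ℤ, u = Q + 6 * n ∨ u = Q' + 6 * n := by
    intro u h1 h3
    have h5 := marks_ok' (X := {a, b, e}) C K hcc (fun m hm hT => clQ m hm (hT.trans hcc))
      (hq.en (Tq.trans hcc.symm)) u h1 h3
    rcases hs' _ (back' h5).1 (back' h5).2 with h6 | h6
    · obtain ⟨n, hn⟩ := pt_eq h6
      exact ⟨n, Or.inl hn⟩
    · obtain ⟨n, hn⟩ := pt_eq h6
      exact ⟨n, Or.inr hn⟩
  have mQ := (mark13 C Tq (clQ _ hq.dist Tq) (ore_spec hq.1)).2 oq
  have mQ' := (mark13 C Tq' (clQ _ hq'.dist Tq') (ore_spec hq'.1)).1 oq'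
  have mV := mark02 C Tv (clV _ hv.dist Tv) (ore_spec hv.1)
  rcases ore_or T z (pt z V) with ho | ho
  · obtain ⟨n, m, h5⟩ := Dir.L3dir (K.word _ _ _ _ _ _ C) (dV := true) (mV.1 ho) hVu mQ mQ' hQu
    rcases h5 with ⟨-, h5⟩ | ⟨h5, -⟩
    · exact ⟨n, m, Or.inl ⟨ho, h5⟩⟩
    · exact absurd h5 (by decide)
  · obtain ⟨n, m, h5⟩ := Dir.L3dir (K.word _ _ _ _ _ _ C) (dV := false) (mV.2 ho) hVu mQ mQ' hQu
    rcases h5 with ⟨h5, -⟩ | ⟨-, h5⟩
    · exact absurd h5 (by decide)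
    · exact ⟨n, m, Or.inr ⟨ho, h5⟩⟩

/-- the orientation at a clean end is unique -/
theorem cln_uniq {v : ℂ} {o o' : ℝ} (hc : Cln T z v) (h1 : OEnd T z v o) (h2 : OEnd T z v o') :
    o = o' := by
  obtain ⟨o₀, ε₀, ho₀, hε₀, -, h0⟩ := hc
  have key : ∀ {o : ℝ}, OEnd T z v o → o = o₀ := by
    intro o hO
    obtain ⟨ho, -, -, -, -, ε, hε, h3⟩ := hO
    by_contra hne
    have e : o = -o₀ := by
      rcases ho with rfl | rfl <;> rcases ho₀ with rfl | rfl <;> first
        | exact absurd rfl hne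
        | norm_num
    have hm : 0 < min ε ε₀ := lt_min hε hε₀
    have h5 := h0 (min ε ε₀ / 2) ⟨by linarith, by have := min_le_right ε ε₀; linarith⟩
    have h6 := h3 (min ε ε₀ / 2) ⟨by linarith, by have := min_le_left ε ε₀; linarith⟩
    rw [e, show -(-o₀ * (min ε ε₀ / 2)) = o₀ * (min ε ε₀ / 2) by ring] at h6
    exact h5 h6.ge
  rw [key h1, key h2]

/-- the far end in the angle coordinate -/
theorem farp (h : Irr U T) (K : OkC U T z) {V : ℝ} {q : ℂ} (hv : EE T z (pt z V))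
    (hq : EE T z q) (hc : T q = (T (pt z V))ᶜ) :
    ∃ s, 0 < s ∧ s ≤ 1 ∧ OEnd T z (pt z (V - ore T z (pt z V) * s)) (-ore T z (pt z V)) ∧
      T z ∩ T (pt z (V - ore T z (pt z V) * s)) = T z ∩ T (pt z V) ∧
      ∀ t ∈ Ioo 0 s, T (pt z (V - ore T z (pt z V) * t)) = T z ∩ T (pt z V) := by
  have hpi := Real.pi_pos
  obtain ⟨l, h0, h1, h2, h3, h5⟩ := far' h
    (fun y hy => K.ends _ inter_subset_left hv.card_i y hy) (ore_spec hv.1) (ore_spec hq.1)
    (by rw [hc]; exact Set.disjoint_left.2 fun i hi hi' => hi' hi.2)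
  set o := ore T z (pt z V) with ho
  have e : ∀ t : ℝ, z + (pt z V - z) * cis (-(o * t)) = pt z (V - o * (t * (3 / Real.pi))) := by
    intro t
    rw [pt_rot]; congr 1; ring
  rw [e] at h2 h3
  refine ⟨l * (3 / Real.pi), by positivity, ?_, h2, h3, fun t ht => ?_⟩
  · have : l * (3 / Real.pi) ≤ Real.pi / 3 * (3 / Real.pi) :=
      mul_le_mul_of_nonneg_right h1 (by positivity)
    have e2 : Real.pi / 3 * (3 / Real.pi) = 1 := by field_simp
    linarith
  · have h6 := h5 (t / (3 / Real.pi)) ⟨by have := ht.1; positivity, by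
      rw [div_lt_iff₀ (by positivity)]; exact ht.2⟩
    rw [e, div_mul_cancel₀ _ (by positivity)] at h6
    exact h6

theorem pt_add_eq {A B : ℝ} (hAB : pt z A = pt z B) (t : ℝ) : pt z (A + t) = pt z (B + t) := by
  obtain ⟨n, rfl⟩ := pt_eq hAB
  have : ∀ (n : ℤ) (u : ℝ), pt z (u + 6 * n) = pt z u := by
    intro n
    induction n with
    | zero => intro u; simp
    | succ i ih =>
      intro u
      have e1 : u + 6 * (((i : ℤ) + 1 : ℤ) : ℝ) = (u + 6 * ((i : ℤ) : ℝ)) + 6 := by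
        push_cast; ring
      rw [e1, pt_six, ih]
    | pred i ih =>
      intro u
      have e1 : u + 6 * ((-(i : ℤ) - 1 : ℤ) : ℝ) + 6 = u + 6 * ((-(i : ℤ) : ℤ) : ℝ) := by
        push_cast; ring
      rw [← pt_six, e1, ih]
  rw [show B + 6 * (n : ℝ) + t = B + t + 6 * (n : ℝ) by ring, this]

/-- two exact arcs from one point in one direction -/
theorem reach_uniq {A B o s s' : ℝ} (hAB : pt z A = pt z B) (h0 : 0 < s) (h0' : 0 < s')
    (hx : ∀ t ∈ Ioo 0 s, (T (pt z (A + o * t))).ncard = 2) (h3 : (T (pt z (A + o * s))).ncard = 3)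
    (hx' : ∀ t ∈ Ioo 0 s', (T (pt z (B + o * t))).ncard = 2)
    (h3' : (T (pt z (B + o * s'))).ncard = 3) : s = s' := by
  rcases lt_trichotomy s s' with h5 | h5 | h5
  · have := hx' s ⟨h0, h5⟩
    rw [← pt_add_eq hAB, h3] at this
    omega
  · exact h5
  · have := hx s' ⟨h0', h5⟩
    rw [pt_add_eq hAB, h3'] at this
    omega

theorem third_ef (C : Ctr U T z a b c d e f) {y : ℂ} {x x' : Fin 6}
    (hP : T z ∩ T y = {x, x'}) (hP2 : (T z ∩ T y).ncard = 2) (h3 : (T y).ncard = 3) :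
    T y = {x, x', e} ∨ T y = {x, x', f} := by
  obtain ⟨g, hg, hTg⟩ := exists_third h3 (P := T z ∩ T y) inter_subset_right hP2
  have hgy : g ∈ T y := by rw [hTg]; exact mem_insert _ _
  have hgz : g ∉ T z := fun h5 => hg ⟨h5, hgy⟩
  have e1 : ∀ w : Fin 6, insert w ({x, x'} : Set (Fin 6)) = {x, x', w} := by
    intro w; ext i; simp only [mem_insert_iff, mem_singleton_iff]; tauto
  rw [hP] at hTg
  rcases C.miss hgz with rfl | rfl
  · left; rw [hTg, e1]
  · right; rw [hTg, e1]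

theorem sdiff_eq_of_inter {A B D : Set (Fin 6)} (h : A ∩ B = A ∩ D) : A \ B = A \ D := by
  ext i
  have := Set.ext_iff.1 h i
  simp only [mem_inter_iff] at this
  simp only [Set.mem_sdiff]
  tauto

theorem no_int {x : ℝ} {j : ℤ} (h1 : 0 < x) (h2 : x ≤ 2) (h3 : -3 < x + 6 * (j : ℝ))
    (h4 : x + 6 * (j : ℝ) < -1) : False := by
  have h5 : (j : ℝ) < 0 := by linarith
  have h6 : j ≤ -1 := by
    have : j < 0 := by exact_mod_cast h5
    omega
  have h7 : (j : ℝ) ≤ -1 := by exact_mod_cast h6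
  linarith

theorem pt_ne {A x : ℝ} (h1 : 0 < |x|) (h2 : |x| ≤ 2) : pt z (A + x) ≠ pt z A := by
  intro h
  obtain ⟨n, hn⟩ := pt_eq h
  have hx : x = 6 * (n : ℝ) := by linarith
  have hn0 : n ≠ 0 := by
    rintro rfl
    rw [hx] at h1
    simp at h1
  have h5 : (1 : ℝ) ≤ |(n : ℝ)| := by
    have : 1 ≤ |n| := Int.one_le_abs hn0
    exact_mod_cast this
  rw [hx, abs_mul] at h2
  have : |(6 : ℝ)| = 6 := by norm_num
  rw [this] at h2
  linarith

/-- the other network with the other ends of the arcs -/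
theorem eqD_aux (h : Irr U T) (h4 : ∀ z, (T z).ncard ≤ 4) (K : OkC U T z)
    (C : Ctr U T z a b c d e f) {V Q Q' : ℝ} (hv : EE T z (pt z V)) (hq : EE T z (pt z Q))
    (hq' : EE T z (pt z Q')) (Tv : T (pt z V) = {a, b, e}) (Tq : T (pt z Q) = {c, d, f})
    (Tq' : T (pt z Q') = {c, d, f}) (hne : pt z Q ≠ pt z Q') (oq : ore T z (pt z Q) = -1)
    (oq' : ore T z (pt z Q') = 1) (hs : ∀ m, EE T z m → T m = {a, b, e} → m = pt z V) : False := by
  have nd := nd_ne C.nd
  have hcc := compl_abe C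
  have hc : T (pt z Q) = (T (pt z V))ᶜ := by rw [Tq, Tv, hcc]
  have hc' : T (pt z Q') = (T (pt z V))ᶜ := by rw [Tq', Tv, hcc]
  have ec : ∀ {q}, T q = (T (pt z V))ᶜ → T (pt z V) = (T q)ᶜ := fun h5 => by rw [h5, compl_compl]
  have hs' : ∀ m, EE T z m → T m = {c, d, f} → m = pt z Q ∨ m = pt z Q' := fun m hm hT =>
    le_two h h4 (X := {a, b, e}) ⟨hv, Tv⟩ ⟨hq, Tq.trans hcc.symm⟩ ⟨hq', Tq'.trans hcc.symm⟩ hne
      ⟨hm, hT.trans hcc.symm⟩
  obtain ⟨n, m, hA⟩ := dirA h h4 K C hv hq hq' Tv Tq Tq' oq oq' hs hs'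
  have hD : -3 < (Q' + 6 * (m : ℝ)) - (Q + 6 * (n : ℝ)) ∧
      (Q' + 6 * (m : ℝ)) - (Q + 6 * (n : ℝ)) < -1 := by
    rcases hA with ⟨-, h1, h2, h3, h5⟩ | ⟨-, h1, h2, h3, h5⟩ <;> constructor <;> linarith
  -- the far ends
  obtain ⟨s, s0, s1, sO, sP, sx⟩ := farp h K hv hq hc
  obtain ⟨r, r0, r1, rO, rP, rx⟩ := farp h K hq hv (ec hc)
  obtain ⟨r', r0', r1', rO', rP', rx'⟩ := farp h K hq' hv (ec hc')
  rw [oq] at rO rP rx
  rw [oq'] at rO' rP' rx'
  set o := ore T z (pt z V) with ho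
  have ho1 : o = 1 ∨ o = -1 := ore_or T z (pt z V)
  have habs : |o| = 1 := by rcases ho1 with h5 | h5 <;> rw [h5] <;> norm_num
  set W := V - o * s with hW
  set P := Q - -1 * r with hP
  set P' := Q' - 1 * r' with hP'
  have eeW : EE T z (pt z W) := ⟨⟨_, sO⟩, by rw [sdiff_eq_of_inter sP]; exact hv.2⟩
  have eeP : EE T z (pt z P) := ⟨⟨_, rO⟩, by rw [sdiff_eq_of_inter rP]; exact hq.2⟩
  have eeP' : EE T z (pt z P') := ⟨⟨_, rO'⟩, by rw [sdiff_eq_of_inter rP']; exact hq'.2⟩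
  have iW := sP.trans (inter_ab C Tv)
  have iP := rP.trans (inter_cd C Tq)
  have iP' := rP'.trans (inter_cd C Tq')
  have TW : T (pt z W) = {a, b, f} := by
    rcases third_ef C iW eeW.card_i eeW.card_v with h5 | h5
    · exfalso
      refine pt_ne (z := z) (A := V) (x := -(o * s)) ?_ ?_ ?_
      · rw [abs_neg, abs_mul, habs, one_mul, abs_of_pos s0]; exact s0
      · rw [abs_neg, abs_mul, habs, one_mul, abs_of_pos s0]; linarith
      · have := hs _ eeW h5
        rw [← sub_eq_add_neg]; exact this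
    · exact h5
  have TP : T (pt z P) = {c, d, e} := by
    rcases third_ef C iP eeP.card_i eeP.card_v with h5 | h5
    · exact h5
    · exfalso
      rcases hs' _ eeP h5 with h6 | h6
      · refine pt_ne (z := z) (A := Q) (x := r) (by rw [abs_of_pos r0]; exact r0)
          (by rw [abs_of_pos r0]; linarith) ?_
        rw [show Q + r = P by rw [hP]; ring]; exact h6
      · obtain ⟨k, hk⟩ := pt_eq h6
        refine no_int (x := r) (j := m - n - k) r0 (by linarith) ?_ ?_ <;>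
          rw [hP] at hk <;> push_cast <;> linarith [hD.1, hD.2]
  have TP' : T (pt z P') = {c, d, e} := by
    rcases third_ef C iP' eeP'.card_i eeP'.card_v with h5 | h5
    · exact h5
    · exfalso
      rcases hs' _ eeP' h5 with h6 | h6
      · obtain ⟨k, hk⟩ := pt_eq h6
        refine no_int (x := r') (j := m - n + k) r0' (by linarith) ?_ ?_ <;>
          rw [hP'] at hk <;> push_cast <;> linarith [hD.1, hD.2]
      · refine pt_ne (z := z) (A := Q') (x := -r') (by rw [abs_neg, abs_of_pos r0']; exact r0')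
          (by rw [abs_neg, abs_of_pos r0']; linarith) ?_
        rw [show Q' + -r' = P' by rw [hP']; ring]; exact h6
  have hneP : pt z P' ≠ pt z P := by
    intro h6
    obtain ⟨k, hk⟩ := pt_eq h6
    refine no_int (x := r + r') (j := m - n + k) (by linarith) (by linarith) ?_ ?_ <;>
      rw [hP, hP'] at hk <;> push_cast <;> linarith [hD.1, hD.2]
  have C' := C.swapEF
  have hcc' := compl_abe C'
  have cW : T (pt z W) = (T (pt z P))ᶜ := by rw [TW, TP, ← hcc', compl_compl]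
  have cW' : T (pt z W) = (T (pt z P'))ᶜ := by rw [TW, TP', ← hcc', compl_compl]
  have clW : ∀ m, dist m z = 1 → T m = {a, b, f} → Cln T z m := fun m hm hT =>
    eeW.cln h h4 eeP (by rw [cW, compl_compl]) hm (hT.trans TW.symm)
  have clP : ∀ m, dist m z = 1 → T m = {c, d, e} → Cln T z m := fun m hm hT =>
    eeP.cln h h4 eeW cW hm (hT.trans TP.symm)
  have oW : ore T z (pt z W) = -o := cln_uniq (clW _ eeW.dist TW) (ore_spec eeW.1) sO
  have oP : ore T z (pt z P) = 1 := by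
    rw [cln_uniq (clP _ eeP.dist TP) (ore_spec eeP.1) rO]; norm_num
  have oP' : ore T z (pt z P') = -1 := cln_uniq (clP _ eeP'.dist TP') (ore_spec eeP'.1) rO'
  -- `w` is single
  have single : ∀ m, EE T z m → T m = {a, b, f} → m = pt z W := by
    intro m hm hT
    obtain ⟨W₂, rfl⟩ := exists_pt hm.dist
    obtain ⟨s₂, t0, t1, tO, tP, tx⟩ := farp h K hm eeP (by rw [hT, TP, ← hcc'])
    set o₂ := ore T z (pt z W₂) with ho₂
    have ho₂1 : o₂ = 1 ∨ o₂ = -1 := ore_or T z (pt z W₂)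
    have habs₂ : |o₂| = 1 := by rcases ho₂1 with h5 | h5 <;> rw [h5] <;> norm_num
    set W₃ := W₂ - o₂ * s₂ with hW₃
    have ee₃ : EE T z (pt z W₃) := ⟨⟨_, tO⟩, by rw [sdiff_eq_of_inter tP]; exact hm.2⟩
    have i₃ : T z ∩ T (pt z W₃) = {a, b} := tP.trans (inter_ab C' hT)
    have back₂ : ∀ t ∈ Ioo 0 s₂, (T (pt z (W₃ + o₂ * t))).ncard = 2 := by
      intro t ht
      have h5 := tx (s₂ - t) ⟨by linarith [ht.2], by linarith [ht.1]⟩
      rw [show W₂ - o₂ * (s₂ - t) = W₃ + o₂ * t by rw [hW₃]; ring] at h5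
      rw [h5]; exact hm.card_i
    have end₂ : (T (pt z (W₃ + o₂ * s₂))).ncard = 3 := by
      rw [show W₃ + o₂ * s₂ = W₂ by rw [hW₃]; ring]; exact hm.card_v
    rcases third_ef C i₃ ee₃.card_i ee₃.card_v with h5 | h5
    · -- the far end is `v`
      have h6 := hs _ ee₃ h5
      have h7 : o = -o₂ := by
        refine cln_uniq (hv.cln h h4 hq hc hv.dist rfl) (ore_spec hv.1) ?_
        rw [← h6]; exact tO
      have h8 : s = s₂ := by
        refine reach_uniq (z := z) (T := T) (A := V) (B := W₃) (o := o₂) h6.symm s0 t0 ?_ ?_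
          back₂ end₂
        · intro t ht
          rw [show V + o₂ * t = V - o * t by rw [h7]; ring, sx t ht]
          exact hv.card_i
        · rw [show V + o₂ * s = W by rw [hW, h7]; ring]; exact eeW.card_v
      have h9 := pt_add_eq h6 (o₂ * s₂)
      rw [show W₃ + o₂ * s₂ = W₂ by rw [hW₃]; ring,
        show V + o₂ * s₂ = W by rw [hW, h7, h8]; ring] at h9
      exact h9
    · -- the far end has the type of `w`
      have hne₂ : pt z W₂ ≠ pt z W₃ := by
        intro h6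
        refine pt_ne (z := z) (A := W₂) (x := -(o₂ * s₂)) ?_ ?_ ?_
        · rw [abs_neg, abs_mul, habs₂, one_mul, abs_of_pos t0]; exact t0
        · rw [abs_neg, abs_mul, habs₂, one_mul, abs_of_pos t0]; linarith
        · rw [← sub_eq_add_neg]; exact h6.symm
      have hX : ({c, d, e} : Set (Fin 6))ᶜ = {a, b, f} := by rw [← hcc', compl_compl]
      rcases le_two h h4 (X := {c, d, e}) ⟨eeP, TP⟩ ⟨hm, hT.trans hX.symm⟩
        ⟨ee₃, h5.trans hX.symm⟩ hne₂ ⟨eeW, TW.trans hX.symm⟩ with h6 | h6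
      · exact h6.symm
      · exfalso
        have h7 : -o = -o₂ := by
          refine cln_uniq (clW _ eeW.dist TW) sO ?_
          rw [h6]; exact tO
        have h7' : o₂ = o := by linarith
        have h8 : s = s₂ := by
          refine reach_uniq (z := z) (T := T) (A := W) (B := W₃) (o := o₂) h6 s0 t0 ?_ ?_
            back₂ end₂
          · intro t ht
            rw [show W + o₂ * t = V - o * (s - t) by rw [hW, h7']; ring,
              sx (s - t) ⟨by linarith [ht.2], by linarith [ht.1]⟩]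
            exact hv.card_i
          · rw [show W + o₂ * s = V by rw [hW, h7']; ring]; exact hv.card_v
        have h9 := pt_add_eq h6 (o₂ * s₂)
        rw [show W₃ + o₂ * s₂ = W₂ by rw [hW₃]; ring,
          show W + o₂ * s₂ = V by rw [hW, h7', h8]; ring] at h9
        have h10 : e ∈ T (pt z W₂) := by rw [← h9, Tv]; simp
        rw [hT] at h10
        obtain ⟨⟨ab, ac, ad, ae, af⟩, ⟨bc, bd, be, bf⟩, ⟨cd, ce, cf⟩, ⟨de, df⟩, ef⟩ := nd
        rcases h10 with h11 | h11 | h11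
        · exact ae h11.symm
        · exact be h11.symm
        · exact ef h11
  have hs2 : ∀ m, EE T z m → T m = {c, d, e} → m = pt z P' ∨ m = pt z P := fun m hm hT =>
    le_two h h4 (X := {a, b, f}) ⟨eeW, TW⟩ ⟨eeP', TP'.trans hcc'.symm⟩
      ⟨eeP, TP.trans hcc'.symm⟩ hneP ⟨hm, hT.trans hcc'.symm⟩
  obtain ⟨n', m', hB⟩ := dirA h h4 K C' eeW eeP' eeP TW TP' TP oP' oP single hs2
  rw [oW] at hB
  rcases hA with ⟨h1, h2, h3, h5, h6⟩ | ⟨h1, h2, h3, h5, h6⟩
  · rcases hB with ⟨g1, -⟩ | ⟨-, g2, g3, g5, g6⟩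
    · rw [h1] at g1; norm_num at g1
    · rw [hW, hP', h1] at g2 g3
      have e1 : 0 < Q' + 6 * (m : ℝ) - V - r' + s := by linarith
      have e2 : Q' + 6 * (m : ℝ) - V - r' + s < 3 := by linarith
      have e3 : (4 : ℝ) ≤ (Q' + 6 * (m : ℝ) - V - r' + s) + 6 * ((n' - m : ℤ) : ℝ) := by
        push_cast; linarith
      have e5 : (Q' + 6 * (m : ℝ) - V - r' + s) + 6 * ((n' - m : ℤ) : ℝ) < 5 := by
        push_cast; linarith
      rcases le_or_gt (n' - m) 0 with h7 | h7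
      · have : ((n' - m : ℤ) : ℝ) ≤ 0 := by exact_mod_cast h7
        linarith
      · have : (1 : ℝ) ≤ ((n' - m : ℤ) : ℝ) := by exact_mod_cast h7
        linarith
  · rcases hB with ⟨-, g2, g3, g5, g6⟩ | ⟨g1, -⟩
    · rw [hW, hP, h1] at g5 g6
      have e1 : 3 < Q + 6 * (n : ℝ) - V + r - s := by linarith
      have e2 : Q + 6 * (n : ℝ) - V + r - s < 6 := by linarith
      have e3 : (1 : ℝ) ≤ (Q + 6 * (n : ℝ) - V + r - s) + 6 * ((m' - n : ℤ) : ℝ) := by
        push_cast; linarith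
      have e5 : (Q + 6 * (n : ℝ) - V + r - s) + 6 * ((m' - n : ℤ) : ℝ) < 2 := by
        push_cast; linarith
      rcases le_or_gt 0 (m' - n) with h7 | h7
      · have : (0 : ℝ) ≤ ((m' - n : ℤ) : ℝ) := by exact_mod_cast h7
        linarith
      · have h8 : m' - n ≤ -1 := by omega
        have : ((m' - n : ℤ) : ℝ) ≤ -1 := by exact_mod_cast h8
        linarith
    · rw [h1] at g1; norm_num at g1

/-- **on a clean circle the two double ends of a (1,2) network have the same orientation** -/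
theorem eqD_ok (h : Irr U T) (h4 : ∀ z, (T z).ncard ≤ 4) (K : OkC U T z) : EqD T z := by
  have main : ∀ {v q q' : ℂ}, Mid T (EE T) z v q q' → (∀ m, EE T z m → T m = T v → m = v) →
      ore T z q = -1 → ore T z q' = 1 → False := by
    intro v q q' m hs oq oq'
    obtain ⟨a, b, c, d, e, f, C, h1, h2⟩ := exists_ctr h m.hv.card_v (m.hv.pairs h rfl)
      (m.hv.en rfl) (m.hq.en m.e)
    obtain ⟨V, rfl⟩ := exists_pt m.hv.dist
    obtain ⟨Q, rfl⟩ := exists_pt m.hq.dist
    obtain ⟨Q', rfl⟩ := exists_pt m.hq'.dist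
    exact eqD_aux h h4 K C m.hv m.hq m.hq' h1 (m.e.trans h2) (m.e'.trans h2) m.ne oq oq'
      fun p hp hT => hs p hp (hT.trans h1.symm)
  intro v q q' m hs
  rcases ore_or T z q with h1 | h1 <;> rcases ore_or T z q' with h2 | h2
  · rw [h1, h2]
  · exact (main (SNet.mid_swap m) hs h2 h1).elim
  · exact (main m hs h1 h2).elim
  · rw [h1, h2]

/-- **Row XD with the class (I)**, the orientations at the good centres discharged -/
theorem no_D_I' {E : Prop} (h : Irr U T) (h4 : ∀ z, (T z).ncard ≤ 4)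
    (hG : E → ∀ z, OkC U T z → F22 T z)
    (hD : ∀ z a b c d, DPt T z a b c d →
      Good U T z ∨ (Tab3 E T z ∧ Has22 T z) ∨ (Tab3 E T z ∧ IC T z)) :
    ∀ z a b c d, DPt T z a b c d → False :=
  no_D_I h h4 hG fun z a b c d hz =>
    (hD z a b c d hz).imp (fun K => ⟨K, eqD_ok h h4 K.1⟩) id

end Vale.Agent.P032.S5.H358
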