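import Vale.Agent.P032.S5.H12.NoD
import Vale.Agent.P032.S5.H767.Exc

/-!
# P032: the circle of a two-pair centre without special ends

`OkC U T z`: the letters of `S(z)` form a tie word (`RawT`), the points of the closures of the exact
arcs have at most three colours.  This is all that is used of the bound `|T y| ≤ 3` on `S(z)`.
-/

open Set Filter Topology Metric

noncomputable section

namespace Vale.Agent.P032.S5.H358

open Vale.Agent.P032.Six Vale.Agent.P032.Words Vale.Agent.P032.S5.H767 Vale.Agent.P032.S5.H349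

section General

variable {k : ℕ} {U : Fin k → Set ℂ} {T : ℂ → Set (Fin k)}

/-- points of an exact arc are in `Ex` -/
theorem mem_ex (h : Irr U T) {z y : ℂ} {P : Set (Fin k)} (hP : P.ncard = 2) (hPz : P ⊆ T z)
    (hy : dist y z = 1) (hT : T y = P) : y ∈ Ex T z P :=
  ⟨hy, h.pair_open hP hPz hT.subset⟩

/-- the end of an exact arc, the bound `|T| ≤ 3` only on the closure of the exact arcs -/
theorem exists_arc_end' (h : Irr U T) {z : ℂ} {P Q : Set (Fin k)} {θ o ε : ℝ}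
    (ho : o = 1 ∨ o = -1) (hP : P.ncard = 2) (hzPQ : T z = P ∪ Q) (hε : 0 < ε)
    (hg : ∀ t ∈ Ioo 0 ε, T (z + cis (θ - o * t)) = P)
    (h3 : ∀ y, y ∈ closure (Ex T z P) → (T y).ncard ≤ 3) (hQ2 : Q.ncard = 2)
    {y₁ y₂ : ℂ} (hy₁ : dist y₁ z = 1) (hy₂ : dist y₂ z = 1) (hy : y₁ ≠ y₂) (hy' : y₁ + y₂ ≠ 2 * z)
    (hQ₁ : Q ⊆ T y₁) (hQ₂ : Q ⊆ T y₂) :
    ∃ l, ∃ g, 0 < l ∧ ε ≤ l ∧ l ≤ Real.pi / 3 ∧ (∀ t ∈ Ioo 0 l, T (z + cis (θ - o * t)) = P) ∧
      T (z + cis (θ - o * l)) = insert g P ∧ g ∉ T z := by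
  have hPz : P ⊆ T z := by rw [hzPQ]; exact subset_union_left
  obtain ⟨l, hl0, hεl, hl, hlt, hss⟩ := h.exists_arc ho hP hPz hε hg
  set v := z + cis (θ - o * l) with hv
  have hvz : dist v z = 1 := dist_add_cis z _
  have hcl : v ∈ closure (Ex T z P) := by
    have hcont : Continuous fun t : ℝ => z + cis (θ - o * t) :=
      continuous_const.add (continuous_cis.comp (by fun_prop))
    have h1 : l ∈ closure (Ioo 0 l) := by
      rw [closure_Ioo hl0.ne]; exact ⟨hl0.le, le_rfl⟩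
    have h2 := hcont.continuousWithinAt (s := Ioo 0 l) (x := l)
    refine closure_mono ?_ (h2.mem_closure_image h1)
    rintro _ ⟨t, ht, rfl⟩
    exact mem_ex h hP hPz (dist_add_cis z _) (hlt t ht)
  have h3v := h3 v hcl
  obtain ⟨g, hgv, hgP⟩ := exists_of_ssubset hss
  have hT : T v = insert g P := by
    symm
    refine Set.eq_of_subset_of_ncard_le (insert_subset hgv hss.1) ?_ (Set.toFinite _)
    rw [Set.ncard_insert_of_notMem hgP (Set.toFinite _), hP]
    exact h3v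
  refine ⟨l, g, hl0, hεl, hl, hlt, hT, fun hgz => ?_⟩
  have hgQ : g ∈ Q := by
    rw [hzPQ] at hgz
    rcases hgz with h4 | h4
    · exact absurd h4 hgP
    · exact h4
  obtain ⟨a, b, hab, hQab⟩ := Set.ncard_eq_two.1 hQ2
  -- the fourth colour
  obtain ⟨d, hdQ, hcov⟩ : ∃ d ∈ Q, Q ⊆ {g, d} := by
    rw [hQab] at hgQ
    rcases hgQ with rfl | hgb
    · exact ⟨b, by rw [hQab]; simp, by rw [hQab]⟩
    · have hgb : g = b := hgb
      exact ⟨a, by rw [hQab]; simp, by rw [hQab, hgb, Set.pair_comm]⟩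
  have hz' : T z ⊆ insert d (T v) := by
    rw [hzPQ, hT]
    rintro m (hm | hm)
    · exact Or.inr (Or.inr hm)
    · rcases hcov hm with rfl | hm
      · exact Or.inr (Or.inl rfl)
      · exact Or.inl hm
  by_cases h1 : y₁ ≠ v ∧ y₁ + v ≠ 2 * z
  · exact h.third_notMem hvz h3v hz' hy₁ (h.sub _ (hQ₁ hdQ)) h1.1 h1.2
  · refine h.third_notMem hvz h3v hz' hy₂ (h.sub _ (hQ₂ hdQ)) (fun h5 => ?_) fun h5 => ?_
    · by_cases h6 : y₁ = v
      · exact hy (h6.trans h5.symm)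
      · push Not at h1
        exact hy' (by rw [h5]; exact h1 h6)
    · by_cases h6 : y₁ = v
      · exact hy' (by rw [h6, add_comm]; exact h5)
      · push Not at h1
        exact hy (by linear_combination (h1 h6) - h5)

/-- **The other end of the arc**, the bound `|T| ≤ 3` only on the closure of the exact arcs -/
theorem far' (h : Irr U T) {z v q : ℂ} {o o' : ℝ}
    (h3 : ∀ y, y ∈ closure (Ex T z (T z ∩ T v)) → (T y).ncard ≤ 3)
    (hv : OEnd T z v o) (hq : OEnd T z q o') (hd : Disjoint (T z ∩ T v) (T q)) :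
    ∃ l, 0 < l ∧ l ≤ Real.pi / 3 ∧ OEnd T z (z + (v - z) * cis (-(o * l))) (-o) ∧
      T z ∩ T (z + (v - z) * cis (-(o * l))) = T z ∩ T v ∧
      ∀ t ∈ Ioo 0 l, T (z + (v - z) * cis (-(o * t))) = T z ∩ T v := by
  obtain ⟨ho, hvz, hz4, hv3, hp2, ε, hε, harc⟩ := hv
  have hn : ‖v - z‖ = 1 := by rw [← dist_eq_norm]; exact hvz
  obtain ⟨θ, hθ⟩ := exists_cis hn
  have key : ∀ t : ℝ, z + (v - z) * cis (-(o * t)) = z + cis (θ - o * t) := by
    intro t
    rw [hθ, sub_eq_add_neg θ, cis_add394]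
  have hQ := OEnd.sub_pair ⟨ho, hvz, hz4, hv3, hp2, ε, hε, harc⟩ hq hd
  obtain ⟨ho', hqz, -, hq3, hq2, ε', hε', harc'⟩ := hq
  set t' := min (ε' / 2) 1 with ht'
  have ht'0 : 0 < t' := lt_min (by linarith) one_pos
  have ht'1 : t' ≤ 1 := min_le_right _ _
  have ht'ε : t' < ε' := lt_of_le_of_lt (min_le_left _ _) (by linarith)
  have hTy := harc' t' ⟨ht'0, ht'ε⟩
  set y := z + (q - z) * cis (-(o' * t')) with hy
  have hnq : ‖q - z‖ = 1 := by rw [← dist_eq_norm]; exact hqz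
  have hqne : q - z ≠ 0 := by
    intro h5; rw [h5, norm_zero] at hnq; exact one_ne_zero hnq.symm
  have hyz : Dist.dist y z = 1 := by
    rw [dist_eq_norm, hy, add_sub_cancel_left, norm_mul, hnq, norm_cis, one_mul]
  have hzPQ : T z = (T z ∩ T v) ∪ (T z \ T v) := (Set.inter_union_sdiff _ _).symm
  have hQ2 : (T z \ T v).ncard = 2 := by rw [← hQ]; exact hq2
  obtain ⟨l, g, hl0, hεl, hl, hlt, hTl, hg⟩ := exists_arc_end' h (z := z) (P := T z ∩ T v)
    (Q := T z \ T v) (θ := θ) (o := o) (ε := ε) ho hp2 hzPQ hε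
    (fun t ht => by rw [← key]; exact harc t ht) h3 hQ2 (y₁ := q) (y₂ := y) hqz hyz
    (fun h5 => by
      have h6 : (T q).ncard = (T z ∩ T q).ncard := by rw [← hTy, ← h5]
      omega)
    (fun h5 => by
      have h6 : (q - z) * (1 + cis (-(o' * t'))) = 0 := by rw [hy] at h5; linear_combination h5
      rcases mul_eq_zero.1 h6 with h7 | h7
      · exact hqne h7
      · have h8 := congrArg Complex.re h7
        have h9 : (cis (-(o' * t'))).re = Real.cos (-(o' * t')) := by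
          rw [cis, Complex.exp_ofReal_mul_I_re]
        rw [Complex.add_re, Complex.one_re, Complex.zero_re, h9, Real.cos_neg] at h8
        have h10 : Real.cos (o' * t') = Real.cos t' := by
          rcases ho' with rfl | rfl
          · rw [one_mul]
          · rw [neg_one_mul, Real.cos_neg]
        rw [h10] at h8
        have h11 : 0 < Real.cos t' := Real.cos_pos_of_mem_Ioo
          ⟨by linarith [Real.pi_gt_three], by linarith [Real.pi_gt_three]⟩
        linarith)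
    (by rw [← hQ]; exact inter_subset_right) (by rw [hTy, hQ])
  have hgP : g ∉ T z ∩ T v := fun h5 => hg h5.1
  have hTl' : T (z + (v - z) * cis (-(o * l))) = insert g (T z ∩ T v) := by rw [key]; exact hTl
  have hint : T z ∩ T (z + (v - z) * cis (-(o * l))) = T z ∩ T v := by
    rw [hTl']
    ext i
    simp only [mem_inter_iff, mem_insert_iff]
    constructor
    · rintro ⟨h5, rfl | h6⟩
      · exact absurd h5 hg
      · exact h6
    · intro h5
      exact ⟨h5.1, Or.inr h5⟩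
  refine ⟨l, hl0, hl, ⟨?_, ?_, hz4, ?_, ?_, l, hl0, fun t ht => ?_⟩, hint, fun t ht => ?_⟩
  · rcases ho with rfl | rfl
    · right; rfl
    · left; norm_num
  · rw [dist_eq_norm, add_sub_cancel_left, norm_mul, hn, norm_cis, one_mul]
  · rw [hTl', Set.ncard_insert_of_notMem hgP (Set.toFinite _), hp2]
  · rw [hint]; exact hp2
  · rw [hint]
    have h5 := hlt (l - t) ⟨by linarith [ht.2], by linarith [ht.1]⟩
    rw [← key] at h5
    rw [← h5]
    congr 1
    rw [add_sub_cancel_left, mul_assoc, ← cis_add394]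
    congr 3
    ring
  · rw [key]; exact hlt t ht

end General

variable {U : Fin 6 → Set ℂ} {T : ℂ → Set (Fin 6)} {X : Set (Fin 6)} {z v q q' m : ℂ}
  {a b c d e f : Fin 6}

/-- the circle of `z` is a tie word without special ends -/
structure OkC (U : Fin 6 → Set ℂ) (T : ℂ → Set (Fin 6)) (z : ℂ) : Prop where
  word : ∀ a b c d e f, Ctr U T z a b c d e f → RawT (Xs T z a b c d e f)
  ends : ∀ P : Set (Fin 6), P ⊆ T z → P.ncard = 2 → ∀ y, y ∈ closure (Ex T z P) →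
    (T y).ncard ≤ 3

/-- the two exact palettes -/
theorem ctr_ends (C : Ctr U T z a b c d e f) (K : OkC U T z) {y : ℂ}
    (hy : y ∈ closure (Ex T z {a, b}) ∨ y ∈ closure (Ex T z {c, d})) : (T y).ncard ≤ 3 := by
  obtain ⟨⟨ab, ac, ad, ae, af⟩, ⟨bc, bd, be, bf⟩, ⟨cd, ce, cf⟩, ⟨de, df⟩, ef⟩ := nd_ne C.nd
  rcases hy with hy | hy
  · refine K.ends _ ?_ (Set.ncard_pair ab) y hy
    rw [C.pal]; rintro i (rfl | rfl) <;> simp
  · refine K.ends _ ?_ (Set.ncard_pair cd) y hy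
    rw [C.pal]; rintro i (rfl | rfl) <;> simp

/-- the common data -/
theorem marks_ok (C : Ctr U T z a b c d e f) (K : OkC U T z)
    (hX : X = {a, b, e}) (hcl : ∀ v, dist v z = 1 → T v = X → Cln T z v) {V : ℝ}
    (hv : En T X z (pt z V)) (hu : ∀ v', En T X z v' → v' = pt z V) (u : ℝ)
    (h0 : u ∈ Xs T z a b c d e f 0) (h2 : u ∈ Xs T z a b c d e f 2) : ∃ n : ℤ, u = V + 6 * n := by
  obtain ⟨⟨ab, ac, ad, ae, af⟩, ⟨bc, bd, be, bf⟩, ⟨cd, ce, cf⟩, ⟨de, df⟩, ef⟩ := nd_ne C.nd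
  have k2 := sub_of_closure C.irr (P := {a, b}) h2
  have hT : T (pt z u) = X := by
    symm
    refine Set.eq_of_subset_of_ncard_le ?_ ?_ (Set.toFinite _)
    · rw [hX]
      rintro i (rfl | rfl | rfl)
      · exact k2 (Or.inl rfl)
      · exact k2 (Or.inr rfl)
      · exact h0.2
    · have : X.ncard = 3 := by
        rw [hX]; exact Set.ncard_eq_three.2 ⟨a, b, e, ab, ae, be, rfl⟩
      rw [this]; exact ctr_ends C K (Or.inl h2)
  exact pt_eq (hu _ (en_of_cln hv (dist_pt z u) hT (hcl _ (dist_pt z u) hT)))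

/-- the common data, second type -/
theorem marks_ok' (C : Ctr U T z a b c d e f) (K : OkC U T z)
    (hX : Xᶜ = {c, d, f}) (hcl : ∀ v, dist v z = 1 → T v = Xᶜ → Cln T z v)
    (hq : En T Xᶜ z q) (u : ℝ) (h1 : u ∈ Xs T z a b c d e f 1) (h2 : u ∈ Xs T z a b c d e f 3) :
    En T Xᶜ z (pt z u) := by
  obtain ⟨⟨ab, ac, ad, ae, af⟩, ⟨bc, bd, be, bf⟩, ⟨cd, ce, cf⟩, ⟨de, df⟩, ef⟩ := nd_ne C.nd
  have k2 := sub_of_closure C.irr (P := {c, d}) h2
  have hT : T (pt z u) = Xᶜ := by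
    symm
    refine Set.eq_of_subset_of_ncard_le ?_ ?_ (Set.toFinite _)
    · rw [hX]
      rintro i (rfl | rfl | rfl)
      · exact k2 (Or.inl rfl)
      · exact k2 (Or.inr rfl)
      · exact h1.2
    · have : Xᶜ.ncard = 3 := by
        rw [hX]; exact Set.ncard_eq_three.2 ⟨c, d, f, cd, cf, df, rfl⟩
      rw [this]; exact ctr_ends C K (Or.inr h2)
  exact en_of_cln hq (dist_pt z u) hT (hcl _ (dist_pt z u) hT)

/-- **L2** for ends: not exactly one end of each of two complementary types. -/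
theorem L2_ok (h : Irr U T) (hX : X.ncard = 3) (K : OkC U T z)
    (hpairs : ∀ y, dist y z = 1 → (∀ᶠ q in 𝓝[sphere z 1] y, T q = T y) → T y ⊆ T z →
      T y = T z ∩ X ∨ T y = T z ∩ Xᶜ)
    (hcl : ∀ v, dist v z = 1 → T v = X ∨ T v = Xᶜ → Cln T z v)
    (hv : En T X z v) (hq : En T Xᶜ z q) :
    (∃ v', v' ≠ v ∧ En T X z v') ∨ ∃ q', q' ≠ q ∧ En T Xᶜ z q' := by
  by_contra hcon
  push Not at hcon
  obtain ⟨hu, hu'⟩ := hcon
  obtain ⟨a, b, c, d, e, f, C, hXabe, hXcdf⟩ := exists_ctr h hX hpairs hv hq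
  obtain ⟨V, rfl⟩ := exists_pt hv.2.2.2.1
  obtain ⟨Q, rfl⟩ := exists_pt hq.2.2.2.1
  refine (K.word _ _ _ _ _ _ C).L2 (V := V) (Q := Q)
    (end02 C (by rw [hv.1, hXabe]) (hcl _ hv.2.2.2.1 (Or.inl hv.1)))
    (end13 C (by rw [hq.1, hXcdf]) (hcl _ hq.2.2.2.1 (Or.inr hq.1))) ?_ ?_
  · intro u h0 h2
    exact marks_ok C K hXabe (fun v h4 h5 => hcl v h4 (Or.inl h5)) hv
      (fun v' hv' => by by_contra hne; exact hu v' hne hv') u h0 h2
  · intro u h1 h4
    have := marks_ok' C K hXcdf (fun v h4 h5 => hcl v h4 (Or.inr h5)) hq u h1 h4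
    refine pt_eq (z := z) ?_
    by_contra hne
    exact hu' _ hne this

/-- **L3** for ends: the centre is in the open triangle of the three ends. -/
theorem L3_ok (h : Irr U T) (hX : X.ncard = 3) (K : OkC U T z)
    (hpairs : ∀ y, dist y z = 1 → (∀ᶠ q in 𝓝[sphere z 1] y, T q = T y) → T y ⊆ T z →
      T y = T z ∩ X ∨ T y = T z ∩ Xᶜ)
    (hcl : ∀ v, dist v z = 1 → T v = X ∨ T v = Xᶜ → Cln T z v)
    (hv : En T X z v) (hq : En T Xᶜ z q) (hq' : En T Xᶜ z q') (hne : q ≠ q')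
    (hu : ∀ v', En T X z v' → v' = v) (hu' : ∀ p, En T Xᶜ z p → p = q ∨ p = q') :
    ∃ α β γ : ℝ, 0 < α ∧ 0 < β ∧ 0 < γ ∧
      (α : ℂ) * (v - z) + (β : ℂ) * (q - z) + (γ : ℂ) * (q' - z) = 0 := by
  obtain ⟨a, b, c, d, e, f, C, hXabe, hXcdf⟩ := exists_ctr h hX hpairs hv hq
  have hvq : v ≠ q := hv.ne hX hq
  have hvq' : v ≠ q' := hv.ne hX hq'
  obtain ⟨V, rfl⟩ := exists_pt hv.2.2.2.1
  -- representatives
  have rep : ∀ {p : ℂ}, dist p z = 1 → pt z V ≠ p → ∃ Q, p = pt z Q ∧ V < Q ∧ Q < V + 6 := by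
    intro p hp hVp
    obtain ⟨Q, hQ⟩ := exists_pt hp
    have hper : ∀ n : ℤ, ∀ u, pt z (u + 6 * n) = pt z u := by
      intro n
      induction n with
      | zero => intro u; simp
      | succ i ih =>
        intro u
        have e1 : u + 6 * (((i : ℤ) + 1 : ℤ) : ℝ) = (u + 6 * ((i : ℤ) : ℝ)) + 6 := by
          push_cast; ring
        rw [e1, pt_six, ih]
      | pred i ih =>
        intro u
        have e1 : u + 6 * ((-(i : ℤ) - 1 : ℤ) : ℝ) + 6 = u + 6 * ((-(i : ℤ) : ℤ) : ℝ) := by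
          push_cast; ring
        rw [← pt_six, e1, ih]
    have h1 := Int.floor_le ((Q - V) / 6)
    have h2 := Int.lt_floor_add_one ((Q - V) / 6)
    have h4 : p = pt z (Q + 6 * ((-⌊(Q - V) / 6⌋ : ℤ) : ℝ)) := by rw [hper, hQ]
    refine ⟨Q + 6 * ((-⌊(Q - V) / 6⌋ : ℤ) : ℝ), h4, ?_, ?_⟩
    · refine lt_of_le_of_ne ?_ ?_
      · push_cast; linarith
      · intro h5
        exact hVp (by rw [h4, ← h5])
    · push_cast; linarith
  have main : ∀ {Q Q' : ℝ}, V < Q → Q < Q' → Q' < V + 6 → En T Xᶜ z (pt z Q) →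
      En T Xᶜ z (pt z Q') → (∀ p, En T Xᶜ z p → p = pt z Q ∨ p = pt z Q') →
      ∃ α β γ : ℝ, 0 < α ∧ 0 < β ∧ 0 < γ ∧ (α : ℂ) * (pt z V - z) + (β : ℂ) * (pt z Q - z) +
        (γ : ℂ) * (pt z Q' - z) = 0 := by
    intro Q Q' hVQ hQQ' hQ6 hEQ hEQ' hun
    obtain ⟨k1, k2, k4⟩ := (K.word _ _ _ _ _ _ C).L3 (V := V) (Q := Q) (Q' := Q')
      (end02 C (by rw [hv.1, hXabe]) (hcl _ hv.2.2.2.1 (Or.inl hv.1)))
      (fun u h0 h2 => marks_ok C K hXabe (fun v h4 h5 => hcl v h4 (Or.inl h5)) hv hu u h0 h2)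
      (end13 C (by rw [hEQ.1, hXcdf]) (hcl _ hEQ.2.2.2.1 (Or.inr hEQ.1)))
      (end13 C (by rw [hEQ'.1, hXcdf]) (hcl _ hEQ'.2.2.2.1 (Or.inr hEQ'.1))) hVQ hQQ' hQ6
      (fun u h1 h4 => by
        have := marks_ok' C K hXcdf (fun v h4 h5 => hcl v h4 (Or.inr h5)) hEQ u h1 h4
        rcases hun _ this with h5 | h5
        · obtain ⟨n, hn⟩ := pt_eq h5
          exact ⟨n, Or.inl hn⟩
        · obtain ⟨n, hn⟩ := pt_eq h5
          exact ⟨n, Or.inr hn⟩)
    have hpi := Real.pi_pos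
    refine ⟨Real.sin (Q' * (Real.pi / 3) - Q * (Real.pi / 3)),
      Real.sin (V * (Real.pi / 3) - Q' * (Real.pi / 3)),
      Real.sin (Q * (Real.pi / 3) - V * (Real.pi / 3)), ?_, ?_, ?_, ?_⟩
    · apply Real.sin_pos_of_pos_of_lt_pi
      · nlinarith
      · nlinarith
    · have e1 : V * (Real.pi / 3) - Q' * (Real.pi / 3) =
          (V + 6 - Q') * (Real.pi / 3) - 2 * Real.pi := by ring
      rw [e1, Real.sin_sub_two_pi]
      apply Real.sin_pos_of_pos_of_lt_pi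
      · nlinarith
      · nlinarith
    · apply Real.sin_pos_of_pos_of_lt_pi
      · nlinarith
      · nlinarith
    · have := tri_id (V * (Real.pi / 3)) (Q * (Real.pi / 3)) (Q' * (Real.pi / 3))
      unfold pt
      rw [add_sub_cancel_left, add_sub_cancel_left, add_sub_cancel_left]
      exact this
  obtain ⟨Q, hQ, hQ1, hQ2⟩ := rep hq.2.2.2.1 hvq
  obtain ⟨Q', hQ', hQ1', hQ2'⟩ := rep hq'.2.2.2.1 hvq'
  subst hQ
  subst hQ'
  rcases lt_trichotomy Q Q' with hlt | heq | hlt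
  · exact main hQ1 hlt hQ2' hq hq' hu'
  · exact absurd (by rw [heq]) hne
  · obtain ⟨α, β, γ, h1, h2, h4, h5⟩ := main hQ1' hlt hQ2 hq' hq (fun p hp => (hu' p hp).symm)
    exact ⟨α, γ, β, h1, h4, h2, by linear_combination h5⟩

/-- **L1** for the colours: `e` meets one of the two pairs. -/
theorem L1e_ok (C : Ctr U T z a b c d e f) (K : OkC U T z) :
    ∃ y, dist y z = 1 ∧ (T y = {a, b, e} ∨ T y = {c, d, e}) := by
  obtain ⟨⟨ab, ac, ad, ae, af⟩, ⟨bc, bd, be, bf⟩, ⟨cd, ce, cf⟩, ⟨de, df⟩, ef⟩ := nd_ne C.nd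
  obtain ⟨u, h0, h2 | h2⟩ := (K.word _ _ _ _ _ _ C).L1e
  · have k2 := sub_of_closure C.irr (P := {a, b}) h2
    refine ⟨pt z u, dist_pt z u, Or.inl (Eq.symm (Set.eq_of_subset_of_ncard_le ?_ ?_
      (Set.toFinite _)))⟩
    · rintro i (rfl | rfl | rfl)
      · exact k2 (Or.inl rfl)
      · exact k2 (Or.inr rfl)
      · exact h0.2
    · rw [Set.ncard_eq_three.2 ⟨a, b, e, ab, ae, be, rfl⟩]; exact ctr_ends C K (Or.inl h2)
  · have k2 := sub_of_closure C.irr (P := {c, d}) h2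
    refine ⟨pt z u, dist_pt z u, Or.inr (Eq.symm (Set.eq_of_subset_of_ncard_le ?_ ?_
      (Set.toFinite _)))⟩
    · rintro i (rfl | rfl | rfl)
      · exact k2 (Or.inl rfl)
      · exact k2 (Or.inr rfl)
      · exact h0.2
    · rw [Set.ncard_eq_three.2 ⟨c, d, e, cd, ce, de, rfl⟩]; exact ctr_ends C K (Or.inr h2)

end Vale.Agent.P032.S5.H358
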