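import Vale.Agent.P032.S5.H358.NoSpec
import Vale.Agent.P032.S5.H448.TabU

/-!
# P032: row XD: no two-pair centre, the facts on the circles as the only hypothesis

Every circle of a two-pair centre is good (`Good`: tie word, no special end, the other points `PtC`) or
it satisfies the three one-centre facts `Tab` (helper448 / helper503) and carries two clean ends of each
of two complementary types.
-/

open Set Filter Topology Metric

noncomputable section

namespace Vale.Agent.P032.S5.H358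

open Vale.Agent.P032.Six Vale.Agent.P032.Words Vale.Agent.P032.S5.H767 Vale.Agent.P032.S5.H349
open Vale.Agent.P032.S5.H448 (Tab tabU_of tab_good GoodC)

variable {U : Fin 6 → Set ℂ} {T : ℂ → Set (Fin 6)} {z : ℂ}

/-- the third edge at a vertex, from helper172 / helper12 -/
theorem lp3EE (h : Irr U T) (h4 : ∀ z, (T z).ncard ≤ 4) : LP3EE T :=
  fun hv hq hc hv' hp hc' hcz hcw => hv.lp3 h h4 hq hc hv' hp hc' hcz hcw

theorem goodC_of_okC (K : OkC U T z) :
    ∀ a b c d e f, Ctr U T z a b c d e f → GoodC T z a b c d e f :=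
  fun a b c d e f C => ⟨K.word a b c d e f C, fun _ hu => ctr_ends C K hu⟩

/-- both forms of the existence of four clean ends -/
theorem has22_iff : Has22 T z ↔ Vale.Agent.P032.S5.H448.Has22 T z := by
  constructor
  · rintro ⟨v₁, v₂, q₁, q₂, h1, h2, h12, k1, k2, k12, e2, f1, f2⟩
    exact ⟨T v₁, v₁, v₂, q₁, q₂, ⟨h1, rfl⟩, ⟨h2, e2⟩, h12, ⟨k1, f1⟩, ⟨k2, f2⟩, k12⟩
  · rintro ⟨X, v₁, v₂, q₁, q₂, ⟨h1, e1⟩, ⟨h2, e2⟩, h12, ⟨k1, f1⟩, ⟨k2, f2⟩, k12⟩
    exact ⟨v₁, v₂, q₁, q₂, h1, h2, h12, k1, k2, k12, by rw [e2, e1], by rw [f1, e1],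
      by rw [f2, e1]⟩

/-- the facts on the ends at all centres -/
theorem tabU_all (h : Irr U T) (h4 : ∀ z, (T z).ncard ≤ 4)
    (hT : ∀ z a b c d, DPt T z a b c d → OkC U T z ∨ Tab T z) : Six.TabU T :=
  tabU_of h h4 fun z v q hv _ _ => by
    obtain ⟨a, b, c, d, h1, h2⟩ := hv.names
    rcases hT z a b c d (hv.dpt h h1 h2) with K | K
    · exact tab_good h h4 (goodC_of_okC K)
    · exact K

theorem no_has22 (h : Irr U T) (h4 : ∀ z, (T z).ncard ≤ 4)
    (hT : ∀ z a b c d, DPt T z a b c d → OkC U T z ∨ Tab T z) (z : ℂ) : ¬ Has22 T z := by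
  rintro ⟨v₁, v₂, q₁, q₂, h1, h2, h12, k1, k2, k12, e2, f1, f2⟩
  exact no22_EE h h4 (lp3EE h h4) (tabU_all h h4 hT) h1 h2 h12 k1 k2 k12 e2 f1 f2

/-- **Row XD**: no two-pair centre. -/
theorem no_D_of_tab (h : Irr U T) (h4 : ∀ z, (T z).ncard ≤ 4)
    (hD : ∀ z a b c d, DPt T z a b c d → Good U T z ∨ (Tab T z ∧ Has22 T z)) :
    ∀ z a b c d, DPt T z a b c d → False :=
  no_D_of_22 h h4
    (no_has22 h h4 fun z a b c d hz => (hD z a b c d hz).imp (fun K => K.1) fun K => K.1)
    fun z a b c d hz => (hD z a b c d hz).imp id fun K => K.2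

/-- the same with a set of third alternatives: the facts `Tab` everywhere and some centre which is
neither good nor `Has22` would remain -/
theorem exists_rest (h : Irr U T) (h4 : ∀ z, (T z).ncard ≤ 4)
    (hT : ∀ z a b c d, DPt T z a b c d → OkC U T z ∨ Tab T z) {z : ℂ} {a b c d : Fin 6}
    (hz : DPt T z a b c d) : ∃ w a' b' c' d', DPt T w a' b' c' d' ∧ ¬ Good U T w ∧ ¬ Has22 T w := by
  by_contra hcon
  push Not at hcon
  exact no_D_of_22 h h4 (no_has22 h h4 hT) (fun w a' b' c' d' hw =>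
    or_iff_not_imp_left.2 fun hG => hcon w a' b' c' d' hw hG) z a b c d hz

end Vale.Agent.P032.S5.H358
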